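import Vale.Agent.P207.H281.PD

/-!
# P207, all dimensions, step 7: first estimates
-/

open Set Filter Topology Metric
open scoped ContDiff RealInnerProductSpace

set_option linter.unusedSectionVars false
set_option linter.unusedVariables false

noncomputable section

namespace Vale.Agent.P207.H281

variable {E : Type*} [NormedAddCommGroup E] [InnerProductSpace ℝ E] [FiniteDimensional ℝ E]

/-- the constant of `exists_log_det` -/
def Cd (E : Type*) [NormedAddCommGroup E] [NormedSpace ℝ E] [FiniteDimensional ℝ E] : ℝ :=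
  (exists_log_det E).choose

/-- the radius of `exists_log_det` -/
def Rd (E : Type*) [NormedAddCommGroup E] [NormedSpace ℝ E] [FiniteDimensional ℝ E] : ℝ :=
  (exists_log_det E).choose_spec.choose

omit [FiniteDimensional ℝ E] in
theorem Cd_nonneg (E : Type*) [NormedAddCommGroup E] [NormedSpace ℝ E] [FiniteDimensional ℝ E] :
    0 ≤ Cd E := (exists_log_det E).choose_spec.choose_spec.1

theorem log_det_le {P : E →L[ℝ] E} (hP : ‖P‖ ≤ Rd E) :
    |Real.log (1 - P).det + trL E P| ≤ Cd E * ‖P‖ ^ 2 :=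
  ((exists_log_det E).choose_spec.choose_spec.2.2 P hP).2

theorem trL_comm (P Q : E →L[ℝ] E) : trL E (P.comp Q) = trL E (Q.comp P) := by
  rw [trL_apply, trL_apply]
  exact LinearMap.trace_mul_comm ℝ (P : E →ₗ[ℝ] E) (Q : E →ₗ[ℝ] E)

theorem abs_trL_le (P : E →L[ℝ] E) : |trL E P| ≤ ‖trL E‖ * ‖P‖ := (trL E).le_opNorm P

theorem norm_const_smB (y : E) (hy : ‖y‖ ≤ 1) : SmB (fun _ => 1) 1 (fun _ : E => y) := by
  refine ⟨contDiffOn_const, fun k x _ => ?_⟩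
  rcases k with _ | k
  · rw [norm_iteratedFDeriv_zero]; exact hy
  · rw [iteratedFDeriv_const_of_ne (by omega)]
    simp

/-- powers of a small number -/
theorem pow_le {t a b : ℝ} (ht : 0 < t) (ht1 : t ≤ 1) (h : b ≤ a) : t ^ a ≤ t ^ b :=
  Real.rpow_le_rpow_of_exponent_ge ht ht1 h

variable {K θ r0 r1 : ℝ} {Ck : ℕ → ℝ} {CQ : ℝ → ℝ → (ℕ → ℝ) → ℝ → ℝ} {D : PD E} {y x q : E} {t : ℝ}

theorem Small.K0 (hS : Small E K θ r0 Ck r1) : 0 < K := by linarith [hS.K1]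

theorem Small.r1_le (hS : Small E K θ r0 Ck r1) : r1 ≤ 1 / 192 := by
  have h1 := hS.disp
  have h2 := hS.K1
  have h3 := hS.pos
  nlinarith

theorem Small.t_le (hS : Small E K θ r0 Ck r1) (ht1 : t ≤ r1) : t ≤ 1 / 192 := ht1.trans hS.r1_le

theorem Small.t_le_one (hS : Small E K θ r0 Ck r1) (ht1 : t ≤ r1) : t ≤ 1 := by
  linarith [hS.t_le ht1]

theorem Small.disp_t (hS : Small E K θ r0 Ck r1) (ht1 : t ≤ r1) : 3 * K * t ≤ 1 / 64 :=
  (mul_le_mul_of_nonneg_left ht1 (by linarith [hS.K0])).trans hS.disp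

namespace PD.Ok

variable (hD : D.Ok K θ r0 Ck CQ) (hS : Small E K θ r0 Ck r1) (hy : ‖y‖ ≤ t) (ht : 0 < t)
  (ht1 : t ≤ r1)
include hD hS hy ht1

theorem y_le : ‖y‖ ≤ r0 := hy.trans (ht1.trans hS.le_r0)

theorem G_smB : SmB (fun k => Ck k * t ^ (1 + θ)) 1 (fun q => D.g y q - y) := by
  have hyr := y_le hD hS hy ht1
  have ht' : 0 ≤ t := (norm_nonneg y).trans hy
  refine ⟨(hD.g_smooth y hyr).sub contDiffOn_const, fun k x hx => (hD.g_bd y hyr k x hx).trans ?_⟩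
  exact mul_le_mul_of_nonneg_left (Real.rpow_le_rpow (norm_nonneg _) hy (by linarith [hS.θ0]))
    (hS.Ck0 k)

theorem H_smB' : SmB (fun k => Ck (k + 1) * t ^ (1 + θ)) 1 (D.H y) :=
  (G_smB hD hS hy ht1).fderiv.congr fun x _ => by
    rw [PD.H, fderiv_sub_const]

theorem g_sub_le (hq : ‖q‖ < 1) : ‖D.g y q - y‖ ≤ Ck 0 * t ^ (1 + θ) :=
  (G_smB hD hS hy ht1).norm_le (by rwa [mem_ball_zero_iff])

theorem H_le (hq : ‖q‖ < 1) : ‖D.H y q‖ ≤ Ck 1 * t ^ (1 + θ) :=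
  (H_smB' hD hS hy ht1).norm_le (by rwa [mem_ball_zero_iff])

theorem DH_le (hq : ‖q‖ < 1) : ‖fderiv ℝ (D.H y) q‖ ≤ Ck 2 * t ^ (1 + θ) :=
  (H_smB' hD hS hy ht1).norm_fderiv_le (by rwa [mem_ball_zero_iff])

include ht

theorem tθ_le : Ck 0 * t ^ (1 + θ) ≤ t := by
  rw [Real.rpow_add ht, Real.rpow_one]
  have h1 : Ck 0 * t ^ θ ≤ 1 :=
    (mul_le_mul_of_nonneg_left (Real.rpow_le_rpow ht.le ht1 hS.θ0.le) (hS.Ck0 0)).trans hS.g0
  nlinarith

theorem t1θ_le_one : t ^ (1 + θ) ≤ 1 :=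
  Real.rpow_le_one ht.le (hS.t_le_one ht1) (by linarith [hS.θ0])

theorem H_smB : SmB (fun k => Ck (k + 1)) 1 (D.H y) :=
  (H_smB' hD hS hy ht1).mono_M fun k =>
    mul_le_of_le_one_right (hS.Ck0 _) (t1θ_le_one hD hS hy ht ht1)

theorem g_smB : SmB (fun k => Ck k + 1) 1 (D.g y) := by
  have h1 := (G_smB hD hS hy ht1).add (norm_const_smB y (hy.trans (hS.t_le_one ht1)))
  refine (h1.congr fun x _ => by rw [sub_add_cancel]).mono_M fun k => ?_
  have := mul_le_of_le_one_right (hS.Ck0 k) (t1θ_le_one hD hS hy ht ht1)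
  linarith

theorem g_le (hq : ‖q‖ < 1) : ‖D.g y q‖ ≤ 2 * t := by
  have h1 := g_sub_le hD hS hy ht1 hq
  have h2 := tθ_le hD hS hy ht ht1
  have h3 : ‖D.g y q‖ ≤ ‖D.g y q - y‖ + ‖y‖ := by
    simpa using norm_add_le (D.g y q - y) y
  linarith

theorem p_le (hx : ‖x‖ < 7 / 8) : ‖D.p y x‖ ≤ 2 * t :=
  g_le hD hS hy ht ht1 (hD.hol_mem y x (y_le hD hS hy ht1) hx)

theorem p_sub_le (hx : ‖x‖ < 7 / 8) : ‖D.p y x - y‖ ≤ Ck 0 * t ^ (1 + θ) :=
  g_sub_le hD hS hy ht1 (hD.hol_mem y x (y_le hD hS hy ht1) hx)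

theorem hol_sub_le (hx : ‖x‖ < 7 / 8) : ‖D.hol y x - x‖ ≤ 3 * K * t := by
  have hK := hS.K0
  have h1 := hD.hol_bd y x (y_le hD hS hy ht1) hx
  have h2 := p_le hD hS hy ht ht1 hx
  have h3 : ‖D.N x (D.p y x)‖ ≤ K * (2 * t) :=
    ((D.N x).le_opNorm _).trans (mul_le_mul (hD.N_bd x (by linarith)) h2 (norm_nonneg _) hK.le)
  have h4 : ‖D.hol y x - x‖ ≤ ‖D.hol y x - x - D.N x (D.p y x)‖ + ‖D.N x (D.p y x)‖ := by
    simpa using norm_add_le (D.hol y x - x - D.N x (D.p y x)) (D.N x (D.p y x))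
  have h5 : K * ‖D.p y x‖ ^ 2 ≤ K * (2 * t) ^ 2 :=
    mul_le_mul_of_nonneg_left (pow_le_pow_left₀ (norm_nonneg _) h2 2) hK.le
  have h6 : t ≤ 1 / 192 := hS.t_le ht1
  have h7 : K * (2 * t) ^ 2 ≤ K * t := by
    have : (2 * t) ^ 2 ≤ t := by nlinarith
    exact mul_le_mul_of_nonneg_left this hK.le
  linarith

theorem hol_sub_le' (hx : ‖x‖ < 7 / 8) : ‖D.hol y x - x‖ ≤ 1 / 64 :=
  (hol_sub_le hD hS hy ht ht1 hx).trans (hS.disp_t ht1)

theorem hol_lt {s : ℝ} (hx : ‖x‖ < s) (hs : s ≤ 7 / 8) : ‖D.hol y x‖ < s + 1 / 64 := by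
  have h1 := hol_sub_le' hD hS hy ht ht1 (hx.trans_le hs)
  have h2 : ‖D.hol y x‖ ≤ ‖D.hol y x - x‖ + ‖x‖ := by
    simpa using norm_add_le (D.hol y x - x) x
  linarith

theorem Mp_sub_le (hx : ‖x‖ < 7 / 8) : ‖D.Mp y x - D.N x‖ ≤ 2 * K * t := by
  have h1 := hD.Mp_bd y x (y_le hD hS hy ht1) hx
  have h2 := mul_le_mul_of_nonneg_left (p_le hD hS hy ht ht1 hx) hS.K0.le
  linarith

theorem Mp_le (hx : ‖x‖ < 7 / 8) : ‖D.Mp y x‖ ≤ 2 * K := by
  have h1 := Mp_sub_le hD hS hy ht ht1 hx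
  have h2 := hD.N_bd x (by linarith)
  have h3 : ‖D.Mp y x‖ ≤ ‖D.Mp y x - D.N x‖ + ‖D.N x‖ := by
    simpa using norm_add_le (D.Mp y x - D.N x) (D.N x)
  have h4 := hS.t_le ht1
  have h5 := hS.K0
  nlinarith

/-- the product formula, with the logarithm of the determinant replaced by the trace -/
theorem ident0 (hx : ‖x‖ < 7 / 8) {b : ℝ} (hb : ‖D.H y (D.hol y x)‖ ≤ b) :
    |trL E ((D.H y (D.hol y x)).comp (D.Mp y x)) + D.Xi y (D.hol y x) + D.A x (D.p y x) +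
      D.B x (D.p y x) (D.p y x)| ≤ 8 * K * t ^ 3 + Cd E * (2 * K * b) ^ 2 := by
  have hyr := y_le hD hS hy ht1
  have hK := hS.K0
  have h1 := hD.prod y x hyr hx
  have hq := hD.hol_mem y x hyr hx
  set P := (D.H y (D.hol y x)).comp (D.Mp y x) with hP
  have h2 : ‖P‖ ≤ ‖D.H y (D.hol y x)‖ * (2 * K) :=
    (ContinuousLinearMap.opNorm_comp_le _ _).trans
      (mul_le_mul_of_nonneg_left (Mp_le hD hS hy ht ht1 hx) (norm_nonneg _))
  have h3 : ‖P‖ ≤ Rd E := by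
    refine h2.trans ((mul_le_mul_of_nonneg_right (H_le hD hS hy ht1 hq) (by positivity)).trans ?_)
    refine le_trans ?_ hS.det
    rw [mul_comm]
    refine mul_le_mul_of_nonneg_left (mul_le_mul_of_nonneg_left ?_ (hS.Ck0 1)) (by positivity)
    exact Real.rpow_le_rpow ht.le ht1 (by linarith [hS.θ0])
  have h4 := log_det_le h3
  have h5 : Cd E * ‖P‖ ^ 2 ≤ Cd E * (2 * K * b) ^ 2 := by
    refine mul_le_mul_of_nonneg_left (pow_le_pow_left₀ (norm_nonneg _) ?_ 2) (Cd_nonneg E)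
    refine h2.trans ?_
    rw [mul_comm]
    exact mul_le_mul_of_nonneg_left hb (by positivity)
  have h6 : K * ‖D.p y x‖ ^ 3 ≤ 8 * K * t ^ 3 := by
    have := mul_le_mul_of_nonneg_left
      (pow_le_pow_left₀ (norm_nonneg _) (p_le hD hS hy ht ht1 hx) 3) hK.le
    calc _ ≤ _ := this
      _ = _ := by ring
  rw [abs_le] at h1 h4 ⊢
  constructor <;> linarith [h1.1, h1.2, h4.1, h4.2]

end PD.Ok

end Vale.Agent.P207.H281
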