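import Vale.Agent.P207.H686.SBun2
import Vale.Agent.P207.H717.End7

/-!
# P207, all dimensions, end of step 7, over the zoom data: uniform 2-jets make the tensor smooth
-/

open Set Filter Topology Metric
open scoped ContDiff

noncomputable section

namespace Vale.Agent.P207.H281

open Vale.Agent.P207.H686

set_option maxSynthPendingDepth 3 in
/-- If the tensor has at every frame a 2-jet with error `C ‖x‖ ^ s`, with uniform constants and
`lam ^ s * Lam < 1`, then it is smooth: the `S`-bundle is everything. -/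
theorem sm_top_of_jets {E W X : Type} [NormedAddCommGroup E] [NormedSpace ℝ E]
    [FiniteDimensional ℝ E] [NormedAddCommGroup W] [NormedSpace ℝ W] [FiniteDimensional ℝ W]
    (D : ZD E W X) {s C R : ℝ} (hs : 2 < s) (hs3 : s ≤ 3) (hgap : D.Lam * D.lam ^ s < 1)
    (hR : 0 < R) (hR1 : R ≤ 1)
    (h : ∀ v, ∃ (a : W →L[ℝ] ℝ) (L : E →L[ℝ] (W →L[ℝ] ℝ)) (Q : E →L[ℝ] E →L[ℝ] (W →L[ℝ] ℝ)),
      ‖a‖ ≤ C ∧ ‖L‖ ≤ C ∧ ‖Q‖ ≤ C ∧
        ∀ x ∈ ball (0 : E) R, ‖D.N v x - (a + L x + Q x x)‖ ≤ C * ‖x‖ ^ s) :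
    ∀ v, D.Sm v = ⊤ := by
  classical
  choose S A L hSt using D.St_prev
  choose e he1 he2 he3 using fun v => D.St_N (hSt v)
  obtain ⟨K, hK⟩ := H717.End7.end7 (E := E) (F := W →L[ℝ] ℝ) (R := R) (lam := D.lam)
    (mu := D.Lam) (s := s) (C := C) D.M hR D.lam1.le hs hs3 hgap
  have hball : ball (0 : E) R ⊆ ball 0 1 := ball_subset_ball hR1
  have key := hK X S D.N (fun v => ((A v).symm : E →L[ℝ] E))
    (fun v => (ContinuousLinearMap.compL ℝ W W ℝ).flip ((L v).symm : W →L[ℝ] W)) e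
    (fun v => ContinuousLinearMap.opNorm_le_bound _ D.lam0.le fun x => D.St_A (hSt v) x)
    (fun v => ?_) (fun v => (he1 v).mono hball) (fun v k y hy => he2 v k y (hball hy))
    (fun v y hy => ?_) h
  · intro v
    refine eq_top_iff.2 fun w _ => ?_
    refine D.sm_max isOpen_ball hball ⟨0, by simpa using hR⟩ ?_
    exact (key v).1.clm_apply contDiffOn_const
  · refine ContinuousLinearMap.opNorm_le_bound _ (zero_le_one.trans D.Lam1) fun f => ?_
    have h1 : ‖((L v).symm : W →L[ℝ] W)‖ ≤ D.Lam :=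
      ContinuousLinearMap.opNorm_le_bound _ (zero_le_one.trans D.Lam1) fun x => D.St_L (hSt v) x
    calc ‖f.comp ((L v).symm : W →L[ℝ] W)‖ ≤ ‖f‖ * ‖((L v).symm : W →L[ℝ] W)‖ :=
          ContinuousLinearMap.opNorm_comp_le _ _
      _ ≤ ‖f‖ * D.Lam := by gcongr
      _ = D.Lam * ‖f‖ := mul_comm _ _
  · ext w
    have h1 := he3 v y (hball hy) ((L v).symm w)
    rw [ContinuousLinearEquiv.apply_symm_apply] at h1
    rw [h1]
    rfl

end Vale.Agent.P207.H281
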