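import Vale.Agent.P207.H582.Resolv

/-!
# P207, all dimensions, end of step 7: the jet of the tensor at one point
-/

open Set Filter Topology Metric
open scoped ContDiff

set_option linter.unusedSectionVars false

noncomputable section

namespace Vale.Agent.P207.H281

variable {E : Type*} [NormedAddCommGroup E] [InnerProductSpace ℝ E] [FiniteDimensional ℝ E]

theorem rpow_split {y a b c : ℝ} (hy : 0 < y) (h : a + b = c) : y ^ a * y ^ b = y ^ c := by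
  rw [← Real.rpow_add hy, h]

set_option maxSynthPendingDepth 3 in
theorem quad_sub {Q : E →L[ℝ] E →L[ℝ] (E →L[ℝ] E)} {C a : ℝ} {p q : E} (hQ : ‖Q‖ ≤ C)
    (hpq : ‖p - q‖ ≤ a) : ‖Q p p - Q q q‖ ≤ C * (a * (‖p‖ + ‖q‖)) := by
  have hC : 0 ≤ C := (norm_nonneg Q).trans hQ
  have ha : 0 ≤ a := (norm_nonneg _).trans hpq
  have h1 : Q p p - Q q q = Q (p - q) p + Q q (p - q) := by
    rw [map_sub, map_sub, sub_apply]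
    abel
  have h2 : ‖Q (p - q) p‖ ≤ C * a * ‖p‖ := by
    refine (Q.le_opNorm₂ _ _).trans ?_
    gcongr
  have h3 : ‖Q q (p - q)‖ ≤ C * ‖q‖ * a := by
    refine (Q.le_opNorm₂ _ _).trans ?_
    gcongr
  rw [h1]
  calc _ ≤ ‖Q (p - q) p‖ + ‖Q q (p - q)‖ := norm_add_le _ _
    _ ≤ C * a * ‖p‖ + C * ‖q‖ * a := add_le_add h2 h3
    _ = _ := by ring

theorem norm_mul3 {𝓐 : Type*} [NormedRing 𝓐] {a b c : 𝓐} {x y z : ℝ} (ha : ‖a‖ ≤ x) (hb : ‖b‖ ≤ y)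
    (hc : ‖c‖ ≤ z) : ‖a * b * c‖ ≤ x * y * z := by
  have hx : 0 ≤ x := (norm_nonneg _).trans ha
  have hy : 0 ≤ y := (norm_nonneg _).trans hb
  calc _ ≤ ‖a * b‖ * ‖c‖ := norm_mul_le _ _
    _ ≤ ‖a‖ * ‖b‖ * ‖c‖ := by gcongr; exact norm_mul_le _ _
    _ ≤ _ := by gcongr

/-- the algebra: `A (H + R)⁻¹ A* - (A R⁻¹ A* - L Q G)` -/
theorem tele_core {𝓐 : Type*} [NormedRing 𝓐] {A As Ri H Inv Qz Lf0 Rg0 : 𝓐}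
    {C0 C C3 F T t : ℝ} (hC0 : 1 ≤ C0) (hC : 0 ≤ C) (ht0 : 0 ≤ t) (htC : t ≤ C0)
    (hT : t ^ 3 ≤ T) (hA : ‖A‖ ≤ C0) (hAs : ‖As‖ ≤ C0) (hRi : ‖Ri‖ ≤ C0)
    (hLf : ‖A * Ri - Lf0‖ ≤ C0 * t) (hRg : ‖Ri * As - Rg0‖ ≤ C0 * t)
    (hEr : ‖Inv - (Ri - Ri * (H * Ri))‖ ≤ 2 * C0 ^ 3 * (C ^ 2 * (F * T)))
    (hQz : ‖Qz‖ ≤ C * C0 ^ 2 * t ^ 2) (hHQ : ‖H - Qz‖ ≤ C3 * T) :
    ‖A * Inv * As - (A * Ri * As - Lf0 * Qz * Rg0)‖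
      ≤ (C0 ^ 2 * (2 * C0 ^ 3 * (C ^ 2 * F)) + C0 ^ 4 * C3 + 3 * C * C0 ^ 5) * T := by
  set Er : 𝓐 := Inv - (Ri - Ri * (H * Ri)) with hEr'
  have hLfn : ‖A * Ri‖ ≤ C0 ^ 2 := by
    calc _ ≤ ‖A‖ * ‖Ri‖ := norm_mul_le _ _
      _ ≤ C0 * C0 := by gcongr
      _ = _ := by ring
  have hRgn : ‖Ri * As‖ ≤ C0 ^ 2 := by
    calc _ ≤ ‖Ri‖ * ‖As‖ := norm_mul_le _ _
      _ ≤ C0 * C0 := by gcongr
      _ = _ := by ring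
  have hLf0n : ‖Lf0‖ ≤ 2 * C0 ^ 2 := by
    have h3 : ‖Lf0‖ ≤ ‖A * Ri‖ + ‖A * Ri - Lf0‖ := by
      have := norm_sub_le (A * Ri) (A * Ri - Lf0)
      rwa [sub_sub_cancel] at this
    have h4 : C0 * t ≤ C0 ^ 2 := by nlinarith
    linarith
  have key : A * Inv * As - (A * Ri * As - Lf0 * Qz * Rg0)
      = A * Er * As - ((A * Ri) * (H - Qz) * (Ri * As) + (A * Ri - Lf0) * Qz * (Ri * As)
        + Lf0 * Qz * (Ri * As - Rg0)) := by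
    rw [hEr']
    noncomm_ring
  rw [key]
  have n1 := norm_mul3 hA hEr hAs
  have n2 := norm_mul3 hLfn hHQ hRgn
  have n3 := norm_mul3 hLf hQz hRgn
  have n4 := norm_mul3 hLf0n hQz hRg
  refine (norm_sub_le _ _).trans ?_
  refine (add_le_add n1 ((norm_add₃_le).trans (add_le_add (add_le_add n2 n3) n4))).trans ?_
  have n6 : 3 * C * C0 ^ 5 * t ^ 3 ≤ 3 * C * C0 ^ 5 * T := by gcongr
  have n7 : (C0 ^ 2 * (2 * C0 ^ 3 * (C ^ 2 * F)) + C0 ^ 4 * C3 + 3 * C * C0 ^ 5) * T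
      = C0 * (2 * C0 ^ 3 * (C ^ 2 * (F * T))) * C0 + C0 ^ 2 * (C3 * T) * C0 ^ 2
        + 3 * C * C0 ^ 5 * T := by ring
  rw [n7]
  linarith

/-- the powers of `‖y‖` -/
theorem pow_core {Y t C C0 ε δ : ℝ} (hY : 0 ≤ Y) (hYδ : Y ≤ δ) (hδ1 : δ ≤ 1) (hC : 0 ≤ C)
    (hC0 : 1 ≤ C0) (hε : 0 < ε) (hε1 : ε ≤ 3 / 4) (hδ2 : C * δ ^ (1 - ε) ≤ 1 / 2) :
    Y * Y ^ (2 - ε) = Y ^ (3 - ε) ∧ C * Y ^ (2 - ε) ≤ Y / 2 ∧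
      Y ^ (2 - ε) * Y ^ (2 - ε) ≤ Y ^ (3 - ε) ∧
      (0 ≤ t → Y ≤ 4 * C0 * t → Y ^ (3 - ε) ≤ (4 * C0) ^ 3 * t ^ (3 - ε)) := by
  have h1 : Y * Y ^ (2 - ε) = Y ^ (3 - ε) := by
    rcases eq_or_lt_of_le hY with h | h
    · rw [← h, Real.zero_rpow (by linarith), Real.zero_rpow (by linarith), zero_mul]
    · have := rpow_split h (show (1 : ℝ) + (2 - ε) = 3 - ε by ring)
      rwa [Real.rpow_one] at this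
  have h2 : Y ^ (2 - ε) = Y ^ (1 - ε) * Y := by
    rcases eq_or_lt_of_le hY with h | h
    · rw [← h, Real.zero_rpow (by linarith), mul_zero]
    · have := rpow_split h (show (1 - ε : ℝ) + 1 = 2 - ε by ring)
      rw [Real.rpow_one] at this
      exact this.symm
  refine ⟨h1, ?_, ?_, fun ht0 hYt => ?_⟩
  · have h4 : Y ^ (1 - ε) ≤ δ ^ (1 - ε) := Real.rpow_le_rpow hY hYδ (by linarith)
    calc C * Y ^ (2 - ε) = (C * Y ^ (1 - ε)) * Y := by rw [h2]; ring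
      _ ≤ (C * δ ^ (1 - ε)) * Y := by gcongr
      _ ≤ 1 / 2 * Y := by gcongr
      _ = _ := by ring
  · have h5 : Y ^ (2 - ε) ≤ Y := by
      rw [h2]
      have h6 : Y ^ (1 - ε) ≤ 1 := Real.rpow_le_one hY (hYδ.trans hδ1) (by linarith)
      nlinarith
    rw [← h1]
    gcongr
  · calc Y ^ (3 - ε) ≤ (4 * C0 * t) ^ (3 - ε) := Real.rpow_le_rpow hY hYt (by linarith)
      _ = (4 * C0) ^ (3 - ε) * t ^ (3 - ε) := by rw [Real.mul_rpow (by positivity) ht0]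
      _ ≤ (4 * C0) ^ 3 * t ^ (3 - ε) := by
        gcongr
        rw [← Real.rpow_natCast]
        refine Real.rpow_le_rpow_of_exponent_le (by linarith) ?_
        push_cast
        linarith

theorem cube_le {t ε : ℝ} (ht0 : 0 ≤ t) (ht1 : t ≤ 1) (hε : 0 < ε) (hε1 : ε ≤ 3 / 4) :
    t ^ 3 ≤ t ^ (3 - ε) := by
  rcases eq_or_lt_of_le ht0 with h | h
  · rw [← h, Real.zero_rpow (by linarith)]
    norm_num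
  · rw [← Real.rpow_natCast t 3]
    refine Real.rpow_le_rpow_of_exponent_ge h ht1 ?_
    push_cast
    linarith

set_option maxSynthPendingDepth 3 in
/-- the second order of `H` -/
theorem hq_core {C0 C K T Y2 Y3 F t : ℝ} {z κ p y : E} {P1 : E →L[ℝ] E}
    {Q : E →L[ℝ] E →L[ℝ] (E →L[ℝ] E)} {H : E →L[ℝ] E} (hC0 : 1 ≤ C0) (hC : 0 ≤ C)
    (ht0 : 0 ≤ t) (hcK : 2 * C0 ≤ 3 * K) (hκp : ‖κ‖ ≤ C0 * ‖p‖)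
    (hp : ‖p - P1 z‖ ≤ C0 * t ^ 2) (hQ : ‖Q‖ ≤ C)
    (h2 : ‖κ‖ ≤ 3 * K * ‖y‖ → ‖H - Q y y‖ ≤ C * Y3) (hpy : ‖p - y‖ ≤ C * Y2)
    (hY20 : 0 ≤ Y2) (hyy : ‖y‖ * Y2 = Y3) (hp2y : ‖p‖ ≤ 2 * ‖y‖) (hP1z : ‖P1 z‖ ≤ C0 * t)
    (hpt : ‖p‖ ≤ 2 * C0 * t) (hY3T : Y3 ≤ F * T) (hT : t ^ 3 ≤ T) :
    ‖H - Q (P1 z) (P1 z)‖ ≤ ((C + 3 * C ^ 2) * F + 3 * C * C0 ^ 2) * T := by
  have hκy : ‖κ‖ ≤ 3 * K * ‖y‖ := by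
    calc ‖κ‖ ≤ C0 * ‖p‖ := hκp
      _ ≤ C0 * (2 * ‖y‖) := by gcongr
      _ = (2 * C0) * ‖y‖ := by ring
      _ ≤ 3 * K * ‖y‖ := by gcongr
  have h3 := h2 hκy
  have h4 : ‖Q y y - Q p p‖ ≤ 3 * C ^ 2 * Y3 := by
    have h5 := quad_sub (a := C * Y2) (p := y) (q := p) hQ (by rw [norm_sub_rev]; exact hpy)
    refine h5.trans ?_
    calc C * (C * Y2 * (‖y‖ + ‖p‖)) ≤ C * (C * Y2 * (3 * ‖y‖)) := by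
          gcongr
          linarith
      _ = 3 * C ^ 2 * (‖y‖ * Y2) := by ring
      _ = _ := by rw [hyy]
  have h6 : ‖Q p p - Q (P1 z) (P1 z)‖ ≤ 3 * C * C0 ^ 2 * t ^ 3 := by
    have h5 := quad_sub (p := p) (q := P1 z) hQ hp
    refine h5.trans ?_
    calc C * (C0 * t ^ 2 * (‖p‖ + ‖P1 z‖)) ≤ C * (C0 * t ^ 2 * (3 * C0 * t)) := by
          gcongr
          linarith
      _ = _ := by ring
  have h7 : H - Q (P1 z) (P1 z) = (H - Q y y) + (Q y y - Q p p) + (Q p p - Q (P1 z) (P1 z)) := by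
    abel
  rw [h7]
  calc _ ≤ ‖H - Q y y‖ + ‖Q y y - Q p p‖ + ‖Q p p - Q (P1 z) (P1 z)‖ := norm_add₃_le
    _ ≤ C * Y3 + 3 * C ^ 2 * Y3 + 3 * C * C0 ^ 2 * t ^ 3 := by gcongr
    _ = (C + 3 * C ^ 2) * Y3 + 3 * C * C0 ^ 2 * t ^ 3 := by ring
    _ ≤ (C + 3 * C ^ 2) * (F * T) + 3 * C * C0 ^ 2 * T := by gcongr
    _ = _ := by ring

/-- the constant of the jet -/
def Cj (C0 C : ℝ) : ℝ :=
  C0 ^ 2 * (2 * C0 ^ 3 * (C ^ 2 * (4 * C0) ^ 3)) +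
    C0 ^ 4 * ((C + 3 * C ^ 2) * (4 * C0) ^ 3 + 3 * C * C0 ^ 2) + 3 * C * C0 ^ 5

theorem Cj_nonneg {C0 C : ℝ} (hC0 : 1 ≤ C0) (hC : 0 ≤ C) : 0 ≤ Cj C0 C := by
  unfold Cj
  positivity

/-- choice of the smallness of `y` -/
theorem exists_delta {C r1 ε : ℝ} (hr1 : 0 < r1) (hε1 : ε ≤ 3 / 4) :
    ∃ δ : ℝ, 0 < δ ∧ δ ≤ r1 ∧ δ ≤ 1 ∧ C * δ ^ (1 - ε) ≤ 1 / 2 := by
  have hlim : Tendsto (fun r : ℝ => C * r ^ (1 - ε)) (𝓝[>] 0) (𝓝 (C * 0 ^ (1 - ε))) :=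
    ((continuous_const.mul (Real.continuous_rpow_const (by linarith))).tendsto 0).mono_left
      nhdsWithin_le_nhds
  rw [Real.zero_rpow (by linarith), mul_zero] at hlim
  have e1 : ∀ᶠ r : ℝ in 𝓝[>] 0, r ∈ Ioo (0 : ℝ) (min r1 1) := Ioo_mem_nhdsGT (lt_min hr1 one_pos)
  obtain ⟨δ, ⟨hδ0, hδm⟩, hδ2⟩ := (e1.and
    (hlim.eventually (ge_mem_nhds (show (0 : ℝ) < 1 / 2 by norm_num)))).exists
  exact ⟨δ, hδ0, hδm.le.trans (min_le_left _ _), hδm.le.trans (min_le_right _ _), hδ2⟩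

theorem first_core {C0 C ε t : ℝ} {z p y : E} {P1 : E →L[ℝ] E} (hC0 : 1 ≤ C0) (ht : ‖z‖ = t)
    (ht1 : t ≤ 1) (hP1 : ‖P1‖ ≤ C0) (hp : ‖p - P1 z‖ ≤ C0 * t ^ 2)
    (hpy : ‖p - y‖ ≤ C * ‖y‖ ^ (2 - ε)) (hCY2 : C * ‖y‖ ^ (2 - ε) ≤ ‖y‖ / 2) :
    ‖p‖ ≤ 2 * ‖y‖ ∧ ‖P1 z‖ ≤ C0 * t ∧ ‖p‖ ≤ 2 * C0 * t ∧ ‖y‖ ≤ 4 * C0 * t := by
  have ht0 : 0 ≤ t := ht ▸ norm_nonneg _
  have hpy' : ‖p - y‖ ≤ ‖y‖ / 2 := hpy.trans hCY2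
  have hp2y : ‖p‖ ≤ 2 * ‖y‖ := by
    have := norm_sub_norm_le p y
    linarith [norm_nonneg y]
  have hy2p : ‖y‖ ≤ 2 * ‖p‖ := by
    have := norm_sub_norm_le y p
    rw [norm_sub_rev] at this
    linarith
  have hP1z : ‖P1 z‖ ≤ C0 * t := by
    refine (P1.le_opNorm z).trans ?_
    rw [ht]
    gcongr
  have hpt : ‖p‖ ≤ 2 * C0 * t := by
    have h3 : ‖p‖ ≤ ‖p - P1 z‖ + ‖P1 z‖ := by
      have := norm_add_le (p - P1 z) (P1 z)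
      rwa [sub_add_cancel] at this
    have h4 : C0 * t ^ 2 ≤ C0 * t := by
      have : t ^ 2 ≤ t := by nlinarith
      gcongr
    linarith
  exact ⟨hp2y, hP1z, hpt, by linarith⟩

theorem t_core {C0 t : ℝ} (hC0 : 1 ≤ C0) (ht0 : 0 ≤ t) (htC : 4 * C0 ^ 2 * t < 1) :
    4 * C0 * t < 1 ∧ t ≤ 1 := by
  have ht4 : 4 * C0 * t < 1 := by nlinarith
  exact ⟨ht4, by nlinarith⟩

theorem H_core {C0 C ε t δ : ℝ} {y : E} {H R : E →L[ℝ] E} (hC0 : 1 ≤ C0) (hC : 0 ≤ C)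
    (htC : 4 * C0 ^ 2 * t < 1) (hR : IsUnit R) (hRi : ‖Ring.inverse R‖ ≤ C0)
    (hH : ‖H‖ ≤ C * ‖y‖ ^ (2 - ε)) (hCY2 : C * ‖y‖ ^ (2 - ε) ≤ ‖y‖ / 2)
    (hyt : ‖y‖ ≤ 4 * C0 * t) (hY22 : ‖y‖ ^ (2 - ε) * ‖y‖ ^ (2 - ε) ≤ ‖y‖ ^ (3 - ε))
    (hY3T : ‖y‖ ^ (3 - ε) ≤ (4 * C0) ^ 3 * t ^ (3 - ε)) :
    IsUnit (H + R) ∧ ‖Ring.inverse (H + R) -
      (Ring.inverse R - Ring.inverse R * (H * Ring.inverse R))‖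
        ≤ 2 * C0 ^ 3 * (C ^ 2 * ((4 * C0) ^ 3 * t ^ (3 - ε))) := by
  have hHt : ‖H‖ ≤ 2 * C0 * t := by linarith
  have hres := resolvent (R := R) (H := H) hR hRi (by nlinarith)
  refine ⟨hres.1, le_trans hres.2 ?_⟩
  have hH2 : ‖H‖ ^ 2 ≤ C ^ 2 * ((4 * C0) ^ 3 * t ^ (3 - ε)) := by
    calc ‖H‖ ^ 2 ≤ (C * ‖y‖ ^ (2 - ε)) ^ 2 := by gcongr
      _ = C ^ 2 * (‖y‖ ^ (2 - ε) * ‖y‖ ^ (2 - ε)) := by ring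
      _ ≤ C ^ 2 * ((4 * C0) ^ 3 * t ^ (3 - ε)) :=
        mul_le_mul_of_nonneg_left (hY22.trans hY3T) (by positivity)
  gcongr

set_option maxSynthPendingDepth 3 in
theorem Qz_core {C0 C t : ℝ} {z : E} {P1 : E →L[ℝ] E} {Q : E →L[ℝ] E →L[ℝ] (E →L[ℝ] E)}
    (hC : 0 ≤ C) (hQ : ‖Q‖ ≤ C) (hP1z : ‖P1 z‖ ≤ C0 * t) :
    ‖Q (P1 z) (P1 z)‖ ≤ C * C0 ^ 2 * t ^ 2 := by
  have h0 : 0 ≤ C0 * t := (norm_nonneg _).trans hP1z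
  calc _ ≤ ‖Q‖ * ‖P1 z‖ * ‖P1 z‖ := Q.le_opNorm₂ _ _
    _ ≤ C * (C0 * t) * (C0 * t) := by
      have h1 : 0 ≤ C * (C0 * t) := mul_nonneg hC h0
      gcongr
    _ = _ := by ring

set_option maxSynthPendingDepth 3 in
/-- **The pointwise estimate.** -/
theorem jet_pt {C0 C K ε δ : ℝ} (hC0 : 1 ≤ C0) (hC : 0 ≤ C) (hε : 0 < ε) (hε1 : ε ≤ 3 / 4)
    (hcK : 2 * C0 ≤ 3 * K) (hδ1 : δ ≤ 1) (hδ2 : C * δ ^ (1 - ε) ≤ 1 / 2)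
    {z κ p y : E} {P1 : E →L[ℝ] E} {Q : E →L[ℝ] E →L[ℝ] (E →L[ℝ] E)} {H R A Lf0 Rg0 : E →L[ℝ] E}
    (hz : 4 * C0 ^ 2 * ‖z‖ < 1) (hy : ‖y‖ ≤ δ) (hκz : ‖κ‖ ≤ C0 * ‖z‖) (hκp : ‖κ‖ ≤ C0 * ‖p‖)
    (hp : ‖p - P1 z‖ ≤ C0 * ‖z‖ ^ 2) (hP1 : ‖P1‖ ≤ C0) (hQ : ‖Q‖ ≤ C)
    (h1 : ‖κ‖ < 20 / 32 → ‖H‖ ≤ C * ‖y‖ ^ (2 - ε) ∧ ‖p - y‖ ≤ C * ‖y‖ ^ (2 - ε))
    (h2 : ‖κ‖ ≤ 3 * K * ‖y‖ → ‖H - Q y y‖ ≤ C * ‖y‖ ^ (3 - ε))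
    (hR : IsUnit R) (hRi : ‖Ring.inverse R‖ ≤ C0) (hA : ‖A‖ ≤ C0)
    (hLf : ‖A * Ring.inverse R - Lf0‖ ≤ C0 * ‖z‖)
    (hRg : ‖Ring.inverse R * star A - Rg0‖ ≤ C0 * ‖z‖) :
    IsUnit (H + R) ∧ ‖A * Ring.inverse (H + R) * star A -
      (A * Ring.inverse R * star A - Lf0 * Q (P1 z) (P1 z) * Rg0)‖
        ≤ Cj C0 C * ‖z‖ ^ (3 - ε) := by
  obtain ⟨ht4, ht1⟩ := t_core hC0 (norm_nonneg z) hz
  obtain ⟨hH, hpy⟩ := h1 (hκz.trans_lt (by linarith))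
  obtain ⟨hyy, hCY2, hY22, hY3T'⟩ := pow_core (t := ‖z‖) (norm_nonneg y) hy hδ1 hC hC0 hε hε1 hδ2
  obtain ⟨hp2y, hP1z, hpt, hyt⟩ := first_core hC0 rfl ht1 hP1 hp hpy hCY2
  have hY3T := hY3T' (norm_nonneg z) hyt
  have ht3T := cube_le (norm_nonneg z) ht1 hε hε1
  obtain ⟨hu, hres⟩ := H_core (δ := δ) hC0 hC hz hR hRi hH hCY2 hyt hY22 hY3T
  refine ⟨hu, ?_⟩
  have hHQ := hq_core hC0 hC (norm_nonneg z) hcK hκp hp hQ h2 hpy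
    (Real.rpow_nonneg (norm_nonneg y) _) hyy hp2y hP1z hpt hY3T ht3T
  exact tele_core hC0 hC (norm_nonneg z) (ht1.trans hC0) ht3T hA (by rw [norm_star]; exact hA)
    hRi hLf hRg hres (Qz_core hC hQ hP1z) hHQ

end Vale.Agent.P207.H281
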