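import Mathlib

/-!
# P207, all dimensions, step 7: `log det (1 - P) = - tr P + O(|P|²)`
-/

open Set Filter Topology Metric
open scoped ContDiff Matrix

noncomputable section

namespace Vale.Agent.P207.H281

variable {E : Type*} [NormedAddCommGroup E] [NormedSpace ℝ E] [FiniteDimensional ℝ E]

/-- the trace of a continuous linear map, as a continuous linear functional -/
def trL (E : Type*) [NormedAddCommGroup E] [NormedSpace ℝ E] [FiniteDimensional ℝ E] :
    (E →L[ℝ] E) →L[ℝ] ℝ :=
  LinearMap.toContinuousLinearMap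
    ((LinearMap.trace ℝ E).comp (ContinuousLinearMap.coeLM ℝ))

theorem trL_apply (P : E →L[ℝ] E) : trL E P = LinearMap.trace ℝ E (P : E →ₗ[ℝ] E) := rfl

theorem contDiff_det : ContDiff ℝ ω (fun P : E →L[ℝ] E => P.det) := by
  classical
  let b := Module.finBasis ℝ E
  have h1 : (fun P : E →L[ℝ] E => P.det) =
      fun P : E →L[ℝ] E => (LinearMap.toMatrix b b (P : E →ₗ[ℝ] E)).det := by
    funext P
    rw [LinearMap.det_toMatrix]
  rw [h1]
  simp only [Matrix.det_apply]
  refine ContDiff.sum fun σ _ => ContDiff.const_smul _ (contDiff_prod fun i _ => ?_)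
  have : (fun P : E →L[ℝ] E => LinearMap.toMatrix b b (P : E →ₗ[ℝ] E) (σ i) i) =
      fun P => (LinearMap.toContinuousLinearMap (b.coord (σ i))) (P (b i)) := by
    funext P
    simp [LinearMap.toMatrix_apply]
  rw [this]
  fun_prop

theorem hasDerivAt_det_line (P : E →L[ℝ] E) :
    HasDerivAt (fun t : ℝ => (1 + t • P).det) (trL E P) 0 := by
  classical
  let b := Module.finBasis ℝ E
  set M := LinearMap.toMatrix b b (P : E →ₗ[ℝ] E) with hM
  have h1 : (fun t : ℝ => (1 + t • P).det) = fun t => (1 + t • M).det := by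
    funext t
    have h2 : (1 + t • P).det =
        (LinearMap.toMatrix b b ((1 + t • P : E →L[ℝ] E) : E →ₗ[ℝ] E)).det := by
      rw [LinearMap.det_toMatrix]
    rw [h2]
    congr 1
    rw [ContinuousLinearMap.toLinearMap_add, ContinuousLinearMap.toLinearMap_smul, map_add,
      map_smul, hM]
    congr 1
    exact LinearMap.toMatrix_one b
  have h3 : trL E P = M.trace := by
    rw [trL_apply, hM, ← LinearMap.trace_eq_matrix_trace]
  rw [h1, h3]
  set p := (Matrix.det (1 + (Polynomial.X : Polynomial ℝ) • M.map Polynomial.C)).divX.divX with hp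
  have h5 : (fun t : ℝ => (1 + t • M).det) = fun t => 1 + M.trace * t + p.eval t * t ^ 2 :=
    funext fun t => Matrix.det_one_add_smul t M
  rw [h5]
  have h4 : HasDerivAt (fun t : ℝ => 1 + M.trace * t + p.eval t * t ^ 2)
      (0 + M.trace * 1 + (p.derivative.eval 0 * 0 ^ 2 + p.eval 0 * (((2 : ℕ) : ℝ) * 0 ^ (2 - 1)))) 0 :=
    ((hasDerivAt_const _ _).add ((hasDerivAt_id _).const_mul _)).add
      ((p.hasDerivAt 0).mul (hasDerivAt_pow 2 0))
  convert! h4 using 1
  simp

theorem exists_log_det (E : Type*) [NormedAddCommGroup E] [NormedSpace ℝ E]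
    [FiniteDimensional ℝ E] : ∃ C ρ : ℝ, 0 ≤ C ∧ 0 < ρ ∧ ∀ P : E →L[ℝ] E, ‖P‖ ≤ ρ →
      0 < (1 - P).det ∧ |Real.log (1 - P).det + trL E P| ≤ C * ‖P‖ ^ 2 := by
  have hd1 : ((1 : E →L[ℝ] E) - 0).det = 1 := by
    rw [sub_zero]
    exact LinearMap.det_id
  set f : (E →L[ℝ] E) → ℝ := fun P => Real.log (1 - P).det + trL E P with hf
  have hdet : ContDiff ℝ ω (fun P : E →L[ℝ] E => (1 - P).det) :=
    contDiff_det.comp (contDiff_const.sub contDiff_id)
  have hfc : ContDiffAt ℝ 2 f 0 := by
    refine ContDiffAt.add (ContDiffAt.log (hdet.contDiffAt.of_le (by exact le_top)) ?_)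
      (trL E).contDiff.contDiffAt
    rw [hd1]; exact one_ne_zero
  have hf0 : f 0 = 0 := by
    rw [hf]
    simp only [hd1, Real.log_one, map_zero, add_zero]
  have hfd : fderiv ℝ f 0 = 0 := by
    ext P
    have h1 : HasDerivAt (fun t : ℝ => f (t • P)) (fderiv ℝ f 0 P) 0 := by
      have h2 : HasFDerivAt f (fderiv ℝ f 0) ((0 : ℝ) • P) := by
        rw [zero_smul]
        exact (hfc.differentiableAt (by norm_num)).hasFDerivAt
      have h3 : HasDerivAt (fun t : ℝ => t • P) ((1 : ℝ) • P) 0 :=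
        (hasDerivAt_id (0 : ℝ)).smul_const P
      have := h2.comp_hasDerivAt (0 : ℝ) h3
      rw [one_smul] at this
      exact this
    have h4 : HasDerivAt (fun t : ℝ => f (t • P)) 0 0 := by
      have h5 : HasDerivAt (fun t : ℝ => (1 + t • (-P)).det) (trL E (-P)) 0 :=
        hasDerivAt_det_line (-P)
      have h6 : HasDerivAt (fun t : ℝ => Real.log (1 + t • (-P)).det)
          (trL E (-P) / (1 + (0 : ℝ) • (-P)).det) 0 := by
        refine h5.log ?_
        rw [zero_smul, add_zero]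
        rw [sub_zero] at hd1
        rw [hd1]; exact one_ne_zero
      have h7 : HasDerivAt (fun t : ℝ => trL E (t • P)) (trL E ((1 : ℝ) • P)) 0 :=
        (trL E).hasFDerivAt.comp_hasDerivAt (0 : ℝ) ((hasDerivAt_id (0 : ℝ)).smul_const P)
      have h8 := h6.add h7
      convert! h8 using 1
      · funext t
        simp only [hf, Pi.add_apply]
        rw [smul_neg, ← sub_eq_add_neg]
      · rw [zero_smul, add_zero, one_smul, map_neg]
        rw [sub_zero] at hd1
        rw [hd1]
        ring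
    have := h1.unique h4
    simpa using this
  obtain ⟨K, s, hs, hK⟩ := (hfc.fderiv_right (m := 1) (by norm_num)).exists_lipschitzOnWith
  have hev : ∀ᶠ P in 𝓝 (0 : E →L[ℝ] E), P ∈ s ∧ DifferentiableAt ℝ f P ∧ 0 < (1 - P).det := by
    refine (Filter.eventually_mem_set.2 hs).and (Filter.Eventually.and ?_ ?_)
    · have := hfc.eventually (by simp)
      filter_upwards [this] with P hP
      exact hP.differentiableAt (by norm_num)
    · have h1 : ContinuousAt (fun P : E →L[ℝ] E => (1 - P).det) 0 := hdet.continuous.continuousAt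
      have h2 : (0 : ℝ) < (1 - (0 : E →L[ℝ] E)).det := by rw [hd1]; exact one_pos
      exact h1.eventually (lt_mem_nhds h2)
  obtain ⟨ρ, hρ, hρ'⟩ := Metric.eventually_nhds_iff_ball.1 hev
  refine ⟨K, ρ / 2, K.2, by positivity, fun P hP => ?_⟩
  have hPb : P ∈ ball (0 : E →L[ℝ] E) ρ := by
    rw [mem_ball_zero_iff]; linarith
  refine ⟨(hρ' P hPb).2.2, ?_⟩
  have h1 : ‖f P - f 0‖ ≤ (K * ‖P‖) * ‖P - 0‖ := by
    refine (convex_closedBall (0 : E →L[ℝ] E) ‖P‖).norm_image_sub_le_of_norm_fderiv_le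
      (𝕜 := ℝ) (fun Q hQ => ?_) (fun Q hQ => ?_) ?_ ?_
    · rw [mem_closedBall_zero_iff] at hQ
      exact (hρ' Q (by rw [mem_ball_zero_iff]; linarith)).2.1
    · rw [mem_closedBall_zero_iff] at hQ
      have h2 := hK.norm_sub_le (hρ' Q (by rw [mem_ball_zero_iff]; linarith)).1
        (hρ' 0 (by simpa using hρ)).1
      rw [hfd, sub_zero, sub_zero] at h2
      exact h2.trans (mul_le_mul_of_nonneg_left hQ K.2)
    · simp
    · simp
  rw [hf0, sub_zero, sub_zero, Real.norm_eq_abs] at h1
  calc |f P| ≤ K * ‖P‖ * ‖P‖ := h1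
    _ = K * ‖P‖ ^ 2 := by ring

end Vale.Agent.P207.H281
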