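import Vale.Agent.P207.H281.Tools
import Vale.Agent.P207.H281.LogDet

/-!
# P207, all dimensions, step 7: the data of the product formula at one base point

`q ∈ ball 0 1` is the affine coordinate of the leaf `ξ₀` (disc of the base point), the other leaves
`ξ(y)` are graphs of `g y = grad δ_y` over this disc, `y = g y 0` is the label of the leaf.
`hol y x` is the coordinate of the point of the leaf `ξ(y)` on the stable leaf through `(x, 0)`,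
`D.p y x = g y (hol y x)` is its momentum, `N x` is the slope of the stable leaf of `x` at `(x, 0)` and
`Mp y x` its slope at the crossing. `X y` is the logarithm of the density of the Margulis area of the
leaf `ξ(y)` in the coordinate `q`, and `- c + A x π + B x π π` is the 2-jet of the one of the stable
leaf of `x`.
-/

open Set Filter Topology Metric
open scoped ContDiff RealInnerProductSpace

noncomputable section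

namespace Vale.Agent.P207.H281

/-- the data at one base point -/
structure PD (E : Type*) [NormedAddCommGroup E] [InnerProductSpace ℝ E] where
  g : E → E → E
  N : E → E →L[ℝ] E
  hol : E → E → E
  Mp : E → E → E →L[ℝ] E
  X : E → E → ℝ
  c : ℝ
  A : E → E →L[ℝ] ℝ
  B : E → E →L[ℝ] E →L[ℝ] ℝ

variable {E : Type*} [NormedAddCommGroup E] [InnerProductSpace ℝ E] [FiniteDimensional ℝ E]

namespace PD

/-- the momentum at the crossing -/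
def p (D : PD E) (y x : E) : E := D.g y (D.hol y x)

/-- `Hess δ_y` -/
def H (D : PD E) (y x : E) : E →L[ℝ] E := fderiv ℝ (D.g y) x

/-- `X_y - c` -/
def Xi (D : PD E) (y x : E) : ℝ := D.X y x - D.c

/-- the smooth right side of the first order identity -/
def F (D : PD E) (y x : E) : ℝ := -(D.Xi y x) - D.A x (D.g y x)

end PD

/-- Lemma Q with `S = 0`: the constant `CQ r R M e` does not depend on the base point. -/
def LQ (N : E → E →L[ℝ] E) (CQ : ℝ → ℝ → (ℕ → ℝ) → ℝ → ℝ) : Prop :=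
  ∀ (r R : ℝ) (M : ℕ → ℝ) (e : ℝ), 1 / 2 ≤ r → r < R → R ≤ 1 → 0 < e →
    ∀ (σ : E → E →L[ℝ] E) (F : E → ℝ) (d : ℝ), SmB M R σ → SmB M R F →
      (∀ x ∈ ball (0 : E) R, ∀ u v, ⟪σ x u, v⟫ = ⟪u, σ x v⟫) → 0 < d → d ≤ 1 →
      (∀ x ∈ ball (0 : E) R, |trL E ((N x).comp (σ x)) - F x| ≤ d) →
      ∀ x ∈ ball (0 : E) r, ‖σ x‖ ≤ CQ r R M e * d ^ (1 - e)

/-- the hypotheses, with constants `K, θ, r0, Ck, CQ` which do not depend on the base point -/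
structure PD.Ok (D : PD E) (K θ r0 : ℝ) (Ck : ℕ → ℝ) (CQ : ℝ → ℝ → (ℕ → ℝ) → ℝ → ℝ) : Prop where
  g_smooth : ∀ y, ‖y‖ ≤ r0 → ContDiffOn ℝ ∞ (D.g y) (ball 0 1)
  g_bd : ∀ y, ‖y‖ ≤ r0 → ∀ k, ∀ q ∈ ball (0 : E) 1,
    ‖iteratedFDeriv ℝ k (fun q => D.g y q - y) q‖ ≤ Ck k * ‖y‖ ^ (1 + θ)
  g_zero : ∀ y, ‖y‖ ≤ r0 → D.g y 0 = y
  g_symm : ∀ y, ‖y‖ ≤ r0 → ∀ q ∈ ball (0 : E) 1, ∀ u v, ⟪D.H y q u, v⟫ = ⟪u, D.H y q v⟫
  N_bd : ∀ x, ‖x‖ < 1 → ‖D.N x‖ ≤ K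
  hol_mem : ∀ y x, ‖y‖ ≤ r0 → ‖x‖ < 7 / 8 → ‖D.hol y x‖ < 1
  hol_bd : ∀ y x, ‖y‖ ≤ r0 → ‖x‖ < 7 / 8 →
    ‖D.hol y x - x - D.N x (D.p y x)‖ ≤ K * ‖D.p y x‖ ^ 2
  Mp_bd : ∀ y x, ‖y‖ ≤ r0 → ‖x‖ < 7 / 8 → ‖D.Mp y x - D.N x‖ ≤ K * ‖D.p y x‖
  X_smB : ∀ y, ‖y‖ ≤ r0 → SmB Ck 1 (D.X y)
  A_bd : ∀ x, ‖x‖ < 7 / 8 → ‖D.A x‖ ≤ K
  B_bd : ∀ x, ‖x‖ < 7 / 8 → ‖D.B x‖ ≤ K
  prod : ∀ y x, ‖y‖ ≤ r0 → ‖x‖ < 7 / 8 →
    |Real.log (1 - (D.H y (D.hol y x)).comp (D.Mp y x)).det - D.Xi y (D.hol y x) -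
      D.A x (D.p y x) - D.B x (D.p y x) (D.p y x)| ≤ K * ‖D.p y x‖ ^ 3
  lq : LQ D.N CQ

/-- the smallness of `r1`: everything below holds for `‖y‖ ≤ t ≤ r1` -/
structure Small (E : Type*) [NormedAddCommGroup E] [InnerProductSpace ℝ E] [FiniteDimensional ℝ E]
    (K θ r0 : ℝ) (Ck : ℕ → ℝ) (r1 : ℝ) : Prop where
  K1 : 1 ≤ K
  θ0 : 0 < θ
  θ1 : θ ≤ 1 / 2
  Ck0 : ∀ k, 0 ≤ Ck k
  pos : 0 < r1
  le_r0 : r1 ≤ r0
  disp : 3 * K * r1 ≤ 1 / 64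
  g0 : Ck 0 * r1 ^ θ ≤ 1
  det : 2 * K * (Ck 1 * r1 ^ (1 + θ)) ≤ (exists_log_det E).choose_spec.choose

theorem exists_small (E : Type*) [NormedAddCommGroup E] [InnerProductSpace ℝ E]
    [FiniteDimensional ℝ E] {K θ r0 : ℝ} {Ck : ℕ → ℝ} (hK : 1 ≤ K) (hθ0 : 0 < θ) (hθ1 : θ ≤ 1 / 2)
    (hr0 : 0 < r0) (hCk : ∀ k, 0 ≤ Ck k) : ∃ r1, Small E K θ r0 Ck r1 := by
  have hρ : 0 < (exists_log_det E).choose_spec.choose :=
    (exists_log_det E).choose_spec.choose_spec.2.1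
  have h1 : Tendsto (fun r : ℝ => 3 * K * r) (𝓝[>] 0) (𝓝 (3 * K * 0)) :=
    ((continuous_const.mul continuous_id).tendsto 0).mono_left nhdsWithin_le_nhds
  have h2 : Tendsto (fun r : ℝ => Ck 0 * r ^ θ) (𝓝[>] 0) (𝓝 (Ck 0 * 0 ^ θ)) :=
    ((continuous_const.mul (Real.continuous_rpow_const hθ0.le)).tendsto 0).mono_left
      nhdsWithin_le_nhds
  have h3 : Tendsto (fun r : ℝ => 2 * K * (Ck 1 * r ^ (1 + θ))) (𝓝[>] 0)
      (𝓝 (2 * K * (Ck 1 * 0 ^ (1 + θ)))) :=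
    ((continuous_const.mul (continuous_const.mul
      (Real.continuous_rpow_const (by linarith)))).tendsto 0).mono_left nhdsWithin_le_nhds
  rw [mul_zero] at h1
  rw [Real.zero_rpow hθ0.ne', mul_zero] at h2
  rw [Real.zero_rpow (by linarith), mul_zero, mul_zero] at h3
  have h4 : ∀ᶠ r : ℝ in 𝓝[>] 0, r ∈ Ioo (0 : ℝ) r0 := Ioo_mem_nhdsGT hr0
  obtain ⟨r, ⟨⟨⟨ha, hb⟩, hc⟩, hd⟩⟩ := (((h4.and (h1.eventually (ge_mem_nhds
    (show (0 : ℝ) < 1 / 64 by norm_num)))).and (h2.eventually (ge_mem_nhds one_pos))).and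
    (h3.eventually (ge_mem_nhds hρ))).exists
  exact ⟨r, hK, hθ0, hθ1, hCk, ha.1, ha.2.le, hb, hc, hd⟩

/-- the output of the first stage: `A` is smooth, and the Hessians are of size `t^(2 - δ)` -/
structure PD.St1 (D : PD E) (C δ r1 : ℝ) (MA : ℕ → ℝ) : Prop where
  A_smB : SmB MA (25 / 32) D.A
  Xi_bd : ∀ y t, ‖y‖ ≤ t → 0 < t → t ≤ r1 → ∀ x ∈ ball (0 : E) (7 / 8), |D.Xi y x| ≤ C * t
  dXi : ∀ y t, ‖y‖ ≤ t → 0 < t → t ≤ r1 → ∀ x ∈ ball (0 : E) (24 / 32),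
    ‖fderiv ℝ (D.X y) x‖ ≤ C * t
  first : ∀ y t, ‖y‖ ≤ t → 0 < t → t ≤ r1 → ∀ x ∈ ball (0 : E) (23 / 32),
    |trL E ((D.N x).comp (D.H y x)) - D.F y x| ≤ C * t ^ (2 : ℝ)
  H_bd : ∀ y t, ‖y‖ ≤ t → 0 < t → t ≤ r1 → ∀ x ∈ ball (0 : E) (22 / 32),
    ‖D.H y x‖ ≤ C * t ^ (2 - δ)

end Vale.Agent.P207.H281
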