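import Vale.Agent.P207.H281.Stage2

/-!
# P207, all dimensions, step 7: the theorem `two_jet`
-/

open Set Filter Topology Metric
open scoped ContDiff RealInnerProductSpace

set_option linter.unusedSectionVars false
set_option linter.unusedVariables false

noncomputable section

namespace Vale.Agent.P207.H281

variable {E : Type*} [NormedAddCommGroup E] [InnerProductSpace ℝ E] [FiniteDimensional ℝ E]

variable {K θ r0 r1 : ℝ} {Ck : ℕ → ℝ} {CQ : ℝ → ℝ → (ℕ → ℝ) → ℝ → ℝ}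

theorem mul_pow {t a b : ℝ} (ht : 0 < t) (ht1 : t ≤ 1) (h : b ≤ a + 1) : t ^ a * t ≤ t ^ b := by
  calc t ^ a * t = t ^ a * t ^ (1 : ℝ) := by rw [Real.rpow_one]
    _ = t ^ (a + 1) := by rw [← Real.rpow_add ht]
    _ ≤ t ^ b := pow_le ht ht1 h

theorem second_bd (hS : Small E K θ r0 Ck r1) {δ : ℝ} (hδ : 0 < δ) (hδ4 : δ ≤ 1 / 4) {C Cm : ℝ}
    (hC : 0 ≤ C) (hCm : 0 ≤ Cm) (MA : ℕ → ℝ) :
    ∃ C' : ℝ, 0 ≤ C' ∧ ∀ D : PD E, D.Ok K θ r0 Ck CQ → D.St1 C δ r1 MA → D.Mid Cm δ r1 →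
      D.St2 C' δ r1 := by
  obtain ⟨MX, hMX, hXs⟩ := Xi_smB (CQ := CQ) hS
  have hK := hS.K0
  have hCd := Cd_nonneg E
  refine ⟨8 * K + Cd E * (2 * K * C) ^ 2 + ‖trL E‖ * (6 * K * K * Cm + 2 * K * C) +
    3 * K * K * C + 3 * K * Cm + 9 * K ^ 2 * Cm + C * (4 * K + K * Cm) + Cm * K + Cm,
    by positivity, fun D hD h1 h2 => ⟨?_, ?_⟩⟩
  · intro y t hy ht ht1 x hx
    refine (h2.dH y t hy ht ht1 x hx).trans (mul_le_mul_of_nonneg_right ?_ (by positivity))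
    have : 0 ≤ 8 * K + Cd E * (2 * K * C) ^ 2 + ‖trL E‖ * (6 * K * K * Cm + 2 * K * C) +
      3 * K * K * C + 3 * K * Cm + 9 * K ^ 2 * Cm + C * (4 * K + K * Cm) + Cm * K := by positivity
    linarith
  intro y t hy ht ht1 x hx
  have hxb := hx
  rw [mem_ball_zero_iff] at hx
  have hx7 : ‖x‖ < 7 / 8 := by linarith
  have hx1 : ‖x‖ < 1 := by linarith
  have hyr := PD.Ok.y_le hD hS hy ht1
  have ht11 := hS.t_le_one ht1
  have hq := hD.hol_mem y x hyr hx7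
  have hq2 := PD.Ok.hol_lt hD hS hy ht ht1 (s := 20 / 32) hx (by norm_num)
  have hhol := PD.Ok.hol_sub_le hD hS hy ht ht1 hx7
  have hqb : D.hol y x ∈ ball (0 : E) (21 / 32) := by rw [mem_ball_zero_iff]; linarith
  have hqb2 : D.hol y x ∈ ball (0 : E) (22 / 32) := ball_subset_ball (by norm_num) hqb
  have hxb1 : x ∈ ball (0 : E) (21 / 32) := ball_subset_ball (by norm_num) hxb
  have hxb2 : x ∈ ball (0 : E) (22 / 32) := ball_subset_ball (by norm_num) hxb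
  set T : ℝ := t ^ (3 - 2 * δ) with hT
  have hT0 : 0 < T := by positivity
  have e1 : t ^ (2 - 2 * δ) * t ≤ T := mul_pow ht ht11 (by linarith)
  have e2 : t ^ (2 - δ) * t ≤ T := mul_pow ht ht11 (by linarith)
  have e3 : t ^ 3 ≤ T := by
    rw [← Real.rpow_natCast]; exact pow_le ht ht11 (by push_cast; linarith)
  have e4 : (t ^ (2 - δ)) ^ 2 ≤ T := by
    rw [← Real.rpow_natCast, ← Real.rpow_mul ht.le]
    exact pow_le ht ht11 (by push_cast; linarith)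
  have e5 : t ^ (1 - δ) * t ^ 2 ≤ T := by
    rw [← Real.rpow_natCast t 2, ← Real.rpow_add ht]
    exact pow_le ht ht11 (by push_cast; linarith)
  have e6 : t ^ 2 ≤ t ^ (2 - δ) := by
    rw [← Real.rpow_two]; exact pow_le ht ht11 (by linarith)
  have hb := h1.H_bd y t hy ht ht1 _ hqb2
  have hbx := h1.H_bd y t hy ht ht1 x hxb2
  have i0 := PD.Ok.ident0 hD hS hy ht ht1 hx7 hb
  have hp := PD.Ok.p_le hD hS hy ht ht1 hx7
  have hNx := hD.N_bd x hx1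
  have hpy : ‖D.p y x - y‖ ≤ Cm * t ^ (2 - δ) := h2.gy y t hy ht ht1 _ hqb2
  -- the trace
  have i1 : |trL E ((D.H y (D.hol y x)).comp (D.Mp y x)) - trL E ((D.N x).comp (D.H y x))| ≤
      ‖trL E‖ * (6 * K * K * Cm + 2 * K * C) * T := by
    rw [trL_comm (D.N x), ← map_sub]
    refine (abs_trL_le _).trans ?_
    have h10 : (D.H y (D.hol y x)).comp (D.Mp y x) - (D.H y x).comp (D.N x) =
        (D.H y (D.hol y x) - D.H y x).comp (D.Mp y x) + (D.H y x).comp (D.Mp y x - D.N x) := by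
      rw [ContinuousLinearMap.sub_comp, ContinuousLinearMap.comp_sub]
      abel
    have h11 : ‖D.H y (D.hol y x) - D.H y x‖ ≤ (Cm * t ^ (2 - 2 * δ)) * ‖D.hol y x - x‖ :=
      (PD.Ok.H_smB hD hS hy ht ht1).norm_sub_le (R' := 21 / 32) hxb1 hqb (by norm_num)
        fun z hz => h2.dH y t hy ht ht1 z hz
    have h12 : ‖(D.H y (D.hol y x) - D.H y x).comp (D.Mp y x)‖ ≤
        (Cm * t ^ (2 - 2 * δ)) * (3 * K * t) * (2 * K) := by
      refine (ContinuousLinearMap.opNorm_comp_le _ _).trans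
        (mul_le_mul (h11.trans ?_) (PD.Ok.Mp_le hD hS hy ht ht1 hx7) (norm_nonneg _) (by positivity))
      gcongr
    have h13 : ‖(D.H y x).comp (D.Mp y x - D.N x)‖ ≤ (C * t ^ (2 - δ)) * (2 * K * t) :=
      (ContinuousLinearMap.opNorm_comp_le _ _).trans
        (mul_le_mul hbx (PD.Ok.Mp_sub_le hD hS hy ht ht1 hx7) (norm_nonneg _) (by positivity))
    rw [h10]
    have h14 := (norm_add_le ((D.H y (D.hol y x) - D.H y x).comp (D.Mp y x))
      ((D.H y x).comp (D.Mp y x - D.N x))).trans (add_le_add h12 h13)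
    calc ‖trL E‖ * _ ≤ ‖trL E‖ * ((Cm * t ^ (2 - 2 * δ)) * (3 * K * t) * (2 * K) +
            (C * t ^ (2 - δ)) * (2 * K * t)) := by gcongr
      _ = ‖trL E‖ * (6 * K * K * Cm * (t ^ (2 - 2 * δ) * t) + 2 * K * C * (t ^ (2 - δ) * t)) := by
          ring
      _ ≤ ‖trL E‖ * (6 * K * K * Cm * T + 2 * K * C * T) := by gcongr
      _ = _ := by ring
  -- `A`
  have i2 : |D.A x (D.p y x - D.g y x)| ≤ 3 * K * K * C * T := by
    have h8 : ‖D.g y (D.hol y x) - D.g y x‖ ≤ (C * t ^ (2 - δ)) * ‖D.hol y x - x‖ :=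
      (PD.Ok.g_smB hD hS hy ht ht1).norm_sub_le (R' := 22 / 32) hxb2 hqb2 (by norm_num)
        fun z hz => h1.H_bd y t hy ht ht1 z hz
    have : |D.A x (D.p y x - D.g y x)| ≤ ‖D.A x‖ * ‖D.p y x - D.g y x‖ := (D.A x).le_opNorm _
    calc _ ≤ _ := this
      _ ≤ K * ((C * t ^ (2 - δ)) * (3 * K * t)) := by
          refine mul_le_mul (hD.A_bd x hx7) (h8.trans ?_) (norm_nonneg _) hK.le
          gcongr
      _ = 3 * K * K * C * (t ^ (2 - δ) * t) := by ring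
      _ ≤ _ := by gcongr
  rw [map_sub] at i2
  -- `B`
  have i3 : |D.B x (D.p y x) (D.p y x) - D.B x y y| ≤ 3 * K * Cm * T := by
    have h3 : D.B x (D.p y x) (D.p y x) - D.B x y y =
        D.B x (D.p y x - y) (D.p y x) + D.B x y (D.p y x - y) := by
      rw [map_sub, map_sub, sub_apply]
      ring
    have h4 : |D.B x (D.p y x - y) (D.p y x)| ≤ K * (Cm * t ^ (2 - δ)) * (2 * t) := by
      have : |D.B x (D.p y x - y) (D.p y x)| ≤ ‖D.B x‖ * ‖D.p y x - y‖ * ‖D.p y x‖ :=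
        (D.B x).le_opNorm₂ _ _
      refine this.trans (mul_le_mul (mul_le_mul (hD.B_bd x hx7) hpy (norm_nonneg _) hK.le) hp
        (norm_nonneg _) (by positivity))
    have h5 : |D.B x y (D.p y x - y)| ≤ K * t * (Cm * t ^ (2 - δ)) := by
      have : |D.B x y (D.p y x - y)| ≤ ‖D.B x‖ * ‖y‖ * ‖D.p y x - y‖ := (D.B x).le_opNorm₂ _ _
      refine this.trans (mul_le_mul (mul_le_mul (hD.B_bd x hx7) hy (norm_nonneg _) hK.le) hpy
        (norm_nonneg _) (by positivity))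
    rw [h3]
    refine (abs_add_le _ _).trans ((add_le_add h4 h5).trans ?_)
    calc K * (Cm * t ^ (2 - δ)) * (2 * t) + K * t * (Cm * t ^ (2 - δ)) =
          3 * K * Cm * (t ^ (2 - δ) * t) := by ring
      _ ≤ _ := by gcongr
  -- `Xi`
  have i4 : |D.Xi y (D.hol y x) - D.Xi y x - fderiv ℝ (D.Xi y) x (D.hol y x - x)| ≤
      9 * K ^ 2 * Cm * T := by
    have h3 := (hXs D hD y t hy ht1).norm_sub_sub_le (R' := 21 / 32) hxb1 hqb (by norm_num)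
      fun z hz => h2.ddX y t hy ht ht1 z hz
    rw [← Real.norm_eq_abs]
    calc _ ≤ _ := h3
      _ ≤ (Cm * t ^ (1 - δ)) * (3 * K * t) ^ 2 := by gcongr
      _ = 9 * K ^ 2 * Cm * (t ^ (1 - δ) * t ^ 2) := by ring
      _ ≤ _ := by gcongr
  have i5 : |fderiv ℝ (D.Xi y) x (D.hol y x - x) - fderiv ℝ (D.Xi y) x (D.N x y)| ≤
      C * (4 * K + K * Cm) * T := by
    rw [← map_sub, ← Real.norm_eq_abs]
    have h3 : ‖D.hol y x - x - D.N x y‖ ≤ (4 * K + K * Cm) * t ^ (2 - δ) := by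
      have h4 := hD.hol_bd y x hyr hx7
      have h5 : D.hol y x - x - D.N x y =
          (D.hol y x - x - D.N x (D.p y x)) + D.N x (D.p y x - y) := by
        rw [map_sub]; abel
      have h6 : K * ‖D.p y x‖ ^ 2 ≤ 4 * K * t ^ (2 - δ) := by
        calc K * ‖D.p y x‖ ^ 2 ≤ K * (2 * t) ^ 2 := by gcongr
          _ = 4 * K * t ^ 2 := by ring
          _ ≤ _ := by gcongr
      have h7 : ‖D.N x (D.p y x - y)‖ ≤ K * (Cm * t ^ (2 - δ)) :=
        ((D.N x).le_opNorm _).trans (mul_le_mul hNx hpy (norm_nonneg _) hK.le)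
      rw [h5]
      refine (norm_add_le _ _).trans ((add_le_add (h4.trans h6) h7).trans_eq ?_)
      ring
    have h8 : ‖fderiv ℝ (D.Xi y) x‖ ≤ C * t := by
      rw [fderiv_Xi]
      exact h1.dXi y t hy ht ht1 x (ball_subset_ball (by norm_num) hxb)
    calc _ ≤ ‖fderiv ℝ (D.Xi y) x‖ * ‖D.hol y x - x - D.N x y‖ :=
          ContinuousLinearMap.le_opNorm _ _
      _ ≤ (C * t) * ((4 * K + K * Cm) * t ^ (2 - δ)) :=
          mul_le_mul h8 h3 (norm_nonneg _) (by positivity)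
      _ = C * (4 * K + K * Cm) * (t ^ (2 - δ) * t) := by ring
      _ ≤ _ := by gcongr
  have i6 : |fderiv ℝ (D.Xi y) x (D.N x y) + fderiv ℝ D.A x (D.N x y) y| ≤ Cm * K * T := by
    have h3 := h2.dZ y t hy ht ht1 x hxb1 (D.N x y)
    have h4 : ‖D.N x y‖ ≤ K * t :=
      ((D.N x).le_opNorm _).trans (mul_le_mul hNx hy (norm_nonneg _) hK.le)
    calc _ ≤ _ := h3
      _ ≤ Cm * t ^ (2 - 2 * δ) * (K * t) := by gcongr
      _ = Cm * K * (t ^ (2 - 2 * δ) * t) := by ring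
      _ ≤ _ := by gcongr
  have i7 : 8 * K * t ^ 3 ≤ 8 * K * T := by gcongr
  have i8 : Cd E * (2 * K * (C * t ^ (2 - δ))) ^ 2 ≤ Cd E * (2 * K * C) ^ 2 * T := by
    calc Cd E * (2 * K * (C * t ^ (2 - δ))) ^ 2 = Cd E * (2 * K * C) ^ 2 * (t ^ (2 - δ)) ^ 2 := by
          ring
      _ ≤ _ := by gcongr
  have i9 : 0 ≤ Cm * T := by positivity
  have h17 : D.F y x = -(D.Xi y x) - D.A x (D.g y x) := rfl
  rw [h17]
  rw [abs_le] at i0 i1 i2 i3 i4 i5 i6 ⊢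
  constructor <;> linarith [i0.1, i0.2, i1.1, i1.2, i2.1, i2.2, i3.1, i3.2, i4.1, i4.2, i5.1,
    i5.2, i6.1, i6.2]

set_option maxSynthPendingDepth 3 in
/-- **The uniform 2-jet.** For all constants there are `C, r1 > 0` such that for all data with these
constants (that is, at every base point) `Hess δ_y` is a quadratic function of `y` up to
`O(‖y‖ ^ (3 - ε))`. -/
theorem two_jet (E : Type*) [NormedAddCommGroup E] [InnerProductSpace ℝ E] [FiniteDimensional ℝ E]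
    {K θ r0 : ℝ} {Ck : ℕ → ℝ} (CQ : ℝ → ℝ → (ℕ → ℝ) → ℝ → ℝ) (hK : 1 ≤ K) (hθ0 : 0 < θ)
    (hθ1 : θ ≤ 1 / 2) (hr0 : 0 < r0) (hCk : ∀ k, 0 ≤ Ck k) {ε : ℝ} (hε : 0 < ε) (hε1 : ε ≤ 3 / 4) :
    ∃ C r1 : ℝ, 0 ≤ C ∧ 0 < r1 ∧ r1 ≤ r0 ∧ r1 ≤ 1 ∧ ∀ D : PD E, D.Ok K θ r0 Ck CQ →
      (∃ Q : E →L[ℝ] E →L[ℝ] (E →L[ℝ] E), (∀ x y, Q x y = Q y x) ∧ ‖Q‖ ≤ C ∧
        ∀ y q, ‖y‖ ≤ r1 → ‖q‖ ≤ 3 * K * ‖y‖ → ‖D.H y q - Q y y‖ ≤ C * ‖y‖ ^ (3 - ε)) ∧
      (∀ y x, ‖y‖ ≤ r1 → ‖x‖ < 20 / 32 → ‖D.H y x‖ ≤ C * ‖y‖ ^ (2 - ε) ∧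
        ‖D.g y x - y‖ ≤ C * ‖y‖ ^ (2 - ε)) := by
  obtain ⟨r1, hS⟩ := exists_small E (Ck := Ck) hK hθ0 hθ1 hr0 hCk
  set δ : ℝ := ε / 3 with hδ
  have hδ0 : 0 < δ := by positivity
  have hδ4 : δ ≤ 1 / 4 := by rw [hδ]; linarith
  obtain ⟨C1, MA, hC1, hMA, h1⟩ := stage1 (CQ := CQ) hS hδ0
  obtain ⟨Cm, hCm, h2⟩ := mid (CQ := CQ) hS hδ0 hδ4 C1 hC1 MA hMA
  obtain ⟨C2, hC2, h3⟩ := second_bd (CQ := CQ) hS hδ0 hδ4 hC1 hCm MA
  obtain ⟨C3, hC3, h4⟩ := stage3 (CQ := CQ) hS hδ0 hδ4 C1 MA hMA C2 hC2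
  refine ⟨C3 + C1 + Cm, r1, by positivity, hS.pos, hS.le_r0, hS.t_le_one le_rfl, fun D hD => ?_⟩
  have s1 := h1 D hD
  have s2 := h2 D hD s1
  have s3 := h3 D hD s1 s2
  obtain ⟨Q, hQ1, hQ2, hQ3⟩ := h4 D hD s1 s3
  refine ⟨⟨Q, hQ1, hQ2.trans (by linarith), fun y q hy hq => ?_⟩, fun y x hy hx => ?_⟩
  · have h5 := hQ3 y q hy hq
    have h6 : (3 - 3 * δ : ℝ) = 3 - ε := by rw [hδ]; ring
    rw [h6] at h5
    refine h5.trans (mul_le_mul_of_nonneg_right ?_ (by positivity))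
    linarith
  · have hxb : x ∈ ball (0 : E) (22 / 32) := by rw [mem_ball_zero_iff]; linarith
    rcases eq_or_ne y 0 with rfl | hy0
    · have hyr : ‖(0 : E)‖ ≤ r0 := hy.trans hS.le_r0
      have hx1 : x ∈ ball (0 : E) 1 := ball_subset_ball (by norm_num) hxb
      have h7 := hD.g_bd 0 hyr 0 x hx1
      have h8 := hD.g_bd 0 hyr 1 x hx1
      rw [norm_zero, Real.zero_rpow (by linarith), mul_zero] at h7 h8
      rw [norm_iteratedFDeriv_zero] at h7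
      rw [← norm_iteratedFDeriv_fderiv, norm_iteratedFDeriv_zero, fderiv_sub_const] at h8
      rw [norm_zero, Real.zero_rpow (by linarith), mul_zero]
      exact ⟨h8, h7⟩
    · have hyp : 0 < ‖y‖ := norm_pos_iff.2 hy0
      have h7 := s1.H_bd y ‖y‖ le_rfl hyp hy x hxb
      have h8 := s2.gy y ‖y‖ le_rfl hyp hy x hxb
      have h9 : ‖y‖ ^ (2 - δ) ≤ ‖y‖ ^ (2 - ε) :=
        pow_le hyp (hS.t_le_one hy) (by rw [hδ]; linarith)
      have h10 : 0 ≤ ‖y‖ ^ (2 - ε) := by positivity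
      constructor
      · calc _ ≤ C1 * ‖y‖ ^ (2 - δ) := h7
          _ ≤ C1 * ‖y‖ ^ (2 - ε) := by gcongr
          _ ≤ _ := by nlinarith
      · calc _ ≤ Cm * ‖y‖ ^ (2 - δ) := h8
          _ ≤ Cm * ‖y‖ ^ (2 - ε) := by gcongr
          _ ≤ _ := by nlinarith

end Vale.Agent.P207.H281
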