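import Vale.Agent.P207.H281.Basic
import Vale.Agent.P207.H558.Tele

/-!
# P207, all dimensions, step 7: the first order identity
-/

open Set Filter Topology Metric
open scoped ContDiff RealInnerProductSpace

set_option linter.unusedSectionVars false
set_option linter.unusedVariables false

noncomputable section

namespace Vale.Agent.P207.H281

variable {E : Type*} [NormedAddCommGroup E] [InnerProductSpace ℝ E] [FiniteDimensional ℝ E]

variable {K θ r0 r1 : ℝ} {Ck : ℕ → ℝ} {CQ : ℝ → ℝ → (ℕ → ℝ) → ℝ → ℝ}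

theorem smB_const {F : Type*} [NormedAddCommGroup F] [NormedSpace ℝ F] (c : F) (R : ℝ) :
    SmB (fun _ => ‖c‖) R (fun _ : E => c) := by
  refine ⟨contDiffOn_const, fun k x _ => ?_⟩
  rcases k with _ | k
  · rw [norm_iteratedFDeriv_zero]
  · rw [iteratedFDeriv_const_of_ne (by omega)]
    simp

/-- Lemma Q in powers of a small parameter -/
theorem lqT (CQ : ℝ → ℝ → (ℕ → ℝ) → ℝ → ℝ) {r R : ℝ} (M : ℕ → ℝ) (hM : ∀ k, 0 ≤ M k) (K' : ℝ)
    {a δ : ℝ} (hr : 1 / 2 ≤ r) (hrR : r < R) (hR : R ≤ 1) (hδ : 0 < δ) (ha : 0 < a) (ha4 : a ≤ 4) :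
    ∃ C : ℝ, 0 ≤ C ∧ ∀ (N : E → E →L[ℝ] E), LQ N CQ → ∀ (σ : E → E →L[ℝ] E) (F : E → ℝ) (t : ℝ),
      0 < t → t ≤ 1 → SmB M R σ → SmB M R F →
      (∀ x ∈ ball (0 : E) R, ∀ u v, ⟪σ x u, v⟫ = ⟪u, σ x v⟫) →
      (∀ x ∈ ball (0 : E) R, |trL E ((N x).comp (σ x)) - F x| ≤ K' * t ^ a) →
      ∀ x ∈ ball (0 : E) r, ‖σ x‖ ≤ C * t ^ (a - δ) := by
  set K1 := max K' 1 with hK1
  have h1 : 1 ≤ K1 := le_max_right _ _
  have h0 : 0 < K1 := by linarith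
  refine ⟨K1 * |CQ r R M (δ / 4)|, by positivity, fun N hN σ F t ht ht1 hσ hF hsym hb x hx => ?_⟩
  have hta : 0 < t ^ a := Real.rpow_pos_of_pos ht a
  have hinv : |K1⁻¹| ≤ 1 := by
    rw [abs_of_pos (by positivity)]
    exact inv_le_one_of_one_le₀ h1
  have hσ' : SmB M R (fun x => K1⁻¹ • σ x) :=
    (hσ.const_smul K1⁻¹).mono_M fun k => mul_le_of_le_one_left (hM k) hinv
  have hF' : SmB M R (fun x => K1⁻¹ * F x) :=
    (hF.const_smul K1⁻¹).mono_M fun k => mul_le_of_le_one_left (hM k) hinv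
  have h2 := hN r R M (δ / 4) hr hrR hR (by positivity) (fun x => K1⁻¹ • σ x)
    (fun x => K1⁻¹ * F x) (t ^ a) hσ' hF' (fun x hx u v => by
      rw [smul_apply, smul_apply, real_inner_smul_left,
        real_inner_smul_right, hsym x hx]) hta (Real.rpow_le_one ht.le ht1 ha.le) (fun x hx => by
      have h3 : trL E ((N x).comp (K1⁻¹ • σ x)) - K1⁻¹ * F x =
          K1⁻¹ * (trL E ((N x).comp (σ x)) - F x) := by
        rw [ContinuousLinearMap.comp_smul, map_smul, smul_eq_mul]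
        ring
      rw [h3, abs_mul, abs_of_pos (show (0 : ℝ) < K1⁻¹ by positivity), inv_mul_le_iff₀ h0]
      exact (hb x hx).trans (mul_le_mul_of_nonneg_right (le_max_left _ _) hta.le)) x hx
  rw [norm_smul, Real.norm_eq_abs, abs_of_pos (show (0 : ℝ) < K1⁻¹ by positivity),
    inv_mul_le_iff₀ h0] at h2
  have h3 : (t ^ a) ^ (1 - δ / 4) ≤ t ^ (a - δ) := by
    rw [← Real.rpow_mul ht.le]
    refine Real.rpow_le_rpow_of_exponent_ge ht ht1 ?_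
    nlinarith
  have h4 : 0 ≤ (t ^ a) ^ (1 - δ / 4) := by positivity
  calc ‖σ x‖ ≤ K1 * (CQ r R M (δ / 4) * (t ^ a) ^ (1 - δ / 4)) := h2
    _ ≤ K1 * (|CQ r R M (δ / 4)| * t ^ (a - δ)) := by
        gcongr
        exact le_abs_self _
    _ = _ := by ring

/-- (1a) -/
theorem Xi_bd (hS : Small E K θ r0 Ck r1) : ∃ C : ℝ, 0 ≤ C ∧ ∀ D : PD E, D.Ok K θ r0 Ck CQ →
    ∀ y t, ‖y‖ ≤ t → 0 < t → t ≤ r1 → ∀ x ∈ ball (0 : E) (7 / 8), |D.Xi y x| ≤ C * t := by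
  have hK := hS.K0
  have hC1 := hS.Ck0 1
  have hCd := Cd_nonneg E
  refine ⟨‖trL E‖ * (2 * K * Ck 1) + 2 * K + 4 * K + 8 * K + Cd E * (2 * K * Ck 1) ^ 2 +
    3 * K * Ck 1, by positivity, fun D hD y t hy ht ht1 x hx => ?_⟩
  rw [mem_ball_zero_iff] at hx
  have hyr := PD.Ok.y_le hD hS hy ht1
  have ht11 := hS.t_le_one ht1
  have hq := hD.hol_mem y x hyr hx
  have htθ : t ^ (1 + θ) ≤ t := by
    calc t ^ (1 + θ) ≤ t ^ (1 : ℝ) := pow_le ht ht11 (by linarith [hS.θ0])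
      _ = t := Real.rpow_one t
  have hb : ‖D.H y (D.hol y x)‖ ≤ Ck 1 * t :=
    (PD.Ok.H_le hD hS hy ht1 hq).trans (mul_le_mul_of_nonneg_left htθ hC1)
  have h1 := PD.Ok.ident0 hD hS hy ht ht1 hx hb
  have hp := PD.Ok.p_le hD hS hy ht ht1 hx
  have h2 : |trL E ((D.H y (D.hol y x)).comp (D.Mp y x))| ≤ ‖trL E‖ * (2 * K * Ck 1) * t := by
    refine (abs_trL_le _).trans ?_
    have : ‖(D.H y (D.hol y x)).comp (D.Mp y x)‖ ≤ (Ck 1 * t) * (2 * K) :=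
      (ContinuousLinearMap.opNorm_comp_le _ _).trans
        (mul_le_mul hb (PD.Ok.Mp_le hD hS hy ht ht1 hx) (norm_nonneg _) (by positivity))
    calc ‖trL E‖ * ‖(D.H y (D.hol y x)).comp (D.Mp y x)‖ ≤ ‖trL E‖ * ((Ck 1 * t) * (2 * K)) := by
          gcongr
      _ = _ := by ring
  have h3 : |D.A x (D.p y x)| ≤ 2 * K * t := by
    have : |D.A x (D.p y x)| ≤ ‖D.A x‖ * ‖D.p y x‖ := (D.A x).le_opNorm _
    calc _ ≤ _ := this
      _ ≤ K * (2 * t) := mul_le_mul (hD.A_bd x hx) hp (norm_nonneg _) hK.le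
      _ = _ := by ring
  have h4 : |D.B x (D.p y x) (D.p y x)| ≤ 4 * K * t := by
    have : |D.B x (D.p y x) (D.p y x)| ≤ ‖D.B x‖ * ‖D.p y x‖ * ‖D.p y x‖ :=
      (D.B x).le_opNorm₂ _ _
    calc _ ≤ _ := this
      _ ≤ K * (2 * t) * (2 * t) := by
          gcongr
          exact hD.B_bd x hx
      _ = 4 * K * (t * t) := by ring
      _ ≤ 4 * K * (t * 1) := by gcongr
      _ = _ := by ring
  have h5 : |D.Xi y (D.hol y x) - D.Xi y x| ≤ 3 * K * Ck 1 * t := by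
    have h6 : ‖D.X y (D.hol y x) - D.X y x‖ ≤ Ck 1 * ‖D.hol y x - x‖ :=
      (hD.X_smB y hyr).norm_sub_le (R' := 1) (by rw [mem_ball_zero_iff]; linarith)
        (by rwa [mem_ball_zero_iff]) le_rfl fun z hz => (hD.X_smB y hyr).norm_fderiv_le hz
    have h7 := PD.Ok.hol_sub_le hD hS hy ht ht1 hx
    have h8 : D.Xi y (D.hol y x) - D.Xi y x = D.X y (D.hol y x) - D.X y x := by
      simp only [PD.Xi]; ring
    rw [h8, ← Real.norm_eq_abs]
    calc _ ≤ _ := h6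
      _ ≤ Ck 1 * (3 * K * t) := by gcongr
      _ = _ := by ring
  have h9 : 8 * K * t ^ 3 ≤ 8 * K * t := by
    have : t ^ 3 ≤ t := by
      calc t ^ 3 = t * t ^ 2 := by ring
        _ ≤ t * 1 := by
            gcongr
            exact pow_le_one₀ ht.le ht11
        _ = t := mul_one t
    exact mul_le_mul_of_nonneg_left this (by positivity)
  have h10 : Cd E * (2 * K * (Ck 1 * t)) ^ 2 ≤ Cd E * (2 * K * Ck 1) ^ 2 * t := by
    calc Cd E * (2 * K * (Ck 1 * t)) ^ 2 = Cd E * (2 * K * Ck 1) ^ 2 * (t * t) := by ring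
      _ ≤ Cd E * (2 * K * Ck 1) ^ 2 * (t * 1) := by gcongr
      _ = _ := by ring
  rw [abs_le] at h1 h2 h3 h4 h5 ⊢
  constructor <;> nlinarith [h1.1, h1.2, h2.1, h2.2, h3.1, h3.2, h4.1, h4.2, h5.1, h5.2]

/-- `X_y - c` has bounds on all derivatives -/
theorem Xi_smB (hS : Small E K θ r0 Ck r1) : ∃ M : ℕ → ℝ, (∀ k, 0 ≤ M k) ∧ ∀ D : PD E,
    D.Ok K θ r0 Ck CQ → ∀ y t, ‖y‖ ≤ t → t ≤ r1 → SmB M 1 (D.Xi y) := by
  obtain ⟨C, hC, h⟩ := Xi_bd (CQ := CQ) hS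
  refine ⟨fun k => Ck k + (Ck 0 + C), fun k => by have := hS.Ck0 k; have := hS.Ck0 0; positivity,
    fun D hD y t hy ht1 => ?_⟩
  have hyr := PD.Ok.y_le hD hS hy ht1
  have h0r : ‖(0 : E)‖ ≤ r0 := by rw [norm_zero]; exact hS.pos.le.trans hS.le_r0
  have h1 := h D hD 0 r1 (by rw [norm_zero]; exact hS.pos.le) hS.pos le_rfl 0
    (by rw [mem_ball_zero_iff, norm_zero]; norm_num)
  have h2 : ‖D.X 0 0‖ ≤ Ck 0 := (hD.X_smB 0 h0r).norm_le (by simp)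
  have h3 : |D.c| ≤ Ck 0 + C := by
    have h4 : D.c = D.X 0 0 - D.Xi 0 0 := by simp only [PD.Xi]; ring
    rw [h4]
    refine (abs_sub _ _).trans ?_
    rw [← Real.norm_eq_abs (D.X 0 0)]
    have h5 : C * r1 ≤ C := mul_le_of_le_one_right hC (hS.t_le_one le_rfl)
    linarith
  have h6 := (hD.X_smB y hyr).sub (smB_const (E := E) D.c 1)
  refine (h6.congr fun x _ => rfl).mono_M fun k => ?_
  rw [Real.norm_eq_abs]
  linarith

theorem fderiv_Xi (D : PD E) (y x : E) : fderiv ℝ (D.Xi y) x = fderiv ℝ (D.X y) x := by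
  have : D.Xi y = fun x => D.X y x - D.c := rfl
  rw [this, fderiv_sub_const]

/-- (1b) -/
theorem dXi_bd1 (hS : Small E K θ r0 Ck r1) {δ : ℝ} (hδ : 0 < δ) : ∃ C : ℝ, 0 ≤ C ∧ ∀ D : PD E,
    D.Ok K θ r0 Ck CQ → ∀ y t, ‖y‖ ≤ t → 0 < t → t ≤ r1 → ∀ x ∈ ball (0 : E) (27 / 32),
      ‖fderiv ℝ (D.Xi y) x‖ ≤ C * t ^ (1 - δ) ∧
      ‖fderiv ℝ (fderiv ℝ (D.Xi y)) x‖ ≤ C * t ^ (1 - δ) := by
  obtain ⟨C, hC, h⟩ := Xi_bd (CQ := CQ) hS
  obtain ⟨M, hM, h1⟩ := Xi_smB (CQ := CQ) hS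
  obtain ⟨C1, hC1, h2⟩ := interpT (E := E) (F := ℝ) M 1 C (a := 1) (δ := δ) (r := 27 / 32)
    (R := 7 / 8) zero_le_one (by norm_num) hδ (by norm_num)
  obtain ⟨C2, hC2, h3⟩ := interpT (E := E) (F := ℝ) M 2 C (a := 1) (δ := δ) (r := 27 / 32)
    (R := 7 / 8) zero_le_one (by norm_num) hδ (by norm_num)
  refine ⟨C1 + C2, by positivity, fun D hD y t hy ht ht1 x hx => ?_⟩
  have h4 := (h1 D hD y t hy ht1).mono_R (R' := 7 / 8) (by norm_num)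
  have h5 : ∀ x ∈ ball (0 : E) (7 / 8), ‖D.Xi y x‖ ≤ C * t ^ (1 : ℝ) := fun x hx => by
    rw [Real.rpow_one, Real.norm_eq_abs]
    exact h D hD y t hy ht ht1 x hx
  have h6 := h2 (D.Xi y) t ht (hS.t_le_one ht1) h4 h5 x hx
  have h7 := h3 (D.Xi y) t ht (hS.t_le_one ht1) h4 h5 x hx
  rw [← norm_iteratedFDeriv_fderiv, norm_iteratedFDeriv_zero] at h6
  rw [← norm_iteratedFDeriv_fderiv, ← norm_iteratedFDeriv_fderiv, norm_iteratedFDeriv_zero] at h7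
  have h8 : 0 ≤ t ^ (1 - δ) := by positivity
  constructor <;> nlinarith

end Vale.Agent.P207.H281
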