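import Vale.Agent.P207.H281.Stage1

/-!
# P207, all dimensions, step 7: the first order identity, conclusion
-/

open Set Filter Topology Metric
open scoped ContDiff RealInnerProductSpace

set_option linter.unusedSectionVars false
set_option linter.unusedVariables false

noncomputable section

namespace Vale.Agent.P207.H281

variable {E : Type*} [NormedAddCommGroup E] [InnerProductSpace ℝ E] [FiniteDimensional ℝ E]

variable {K θ r0 r1 : ℝ} {Ck : ℕ → ℝ} {CQ : ℝ → ℝ → (ℕ → ℝ) → ℝ → ℝ}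

/-- (1c) -/
theorem A_approx (hS : Small E K θ r0 Ck r1) : ∃ C : ℝ, 0 ≤ C ∧ ∀ D : PD E, D.Ok K θ r0 Ck CQ →
    ∀ y t, ‖y‖ ≤ t → 0 < t → t ≤ r1 → ∀ x ∈ ball (0 : E) (26 / 32),
      |D.A x y + D.Xi y x| ≤ C * t ^ (1 + θ) := by
  obtain ⟨Cb, hCb, hdX⟩ := dXi_bd1 (CQ := CQ) hS (δ := 1 / 4) (by norm_num)
  obtain ⟨MX, hMX, hXs⟩ := Xi_smB (CQ := CQ) hS
  have hK := hS.K0
  have hC1 := hS.Ck0 1
  have hC0 := hS.Ck0 0
  have hCd := Cd_nonneg E
  refine ⟨‖trL E‖ * (2 * K * Ck 1) + 4 * K + 8 * K + Cd E * (2 * K * Ck 1) ^ 2 +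
    3 * K * Cb + K * Ck 0, by positivity, fun D hD y t hy ht ht1 x hx => ?_⟩
  rw [mem_ball_zero_iff] at hx
  have hx7 : ‖x‖ < 7 / 8 := by linarith
  have hyr := PD.Ok.y_le hD hS hy ht1
  have ht11 := hS.t_le_one ht1
  have hq := hD.hol_mem y x hyr hx7
  have hq2 := PD.Ok.hol_lt hD hS hy ht ht1 (s := 26 / 32) hx (by norm_num)
  have hs0 : 0 < t ^ (1 + θ) := by positivity
  have h2le : t ^ 2 ≤ t ^ (1 + θ) := by
    rw [← Real.rpow_two]; exact pow_le ht ht11 (by linarith [hS.θ1])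
  have h3le : t ^ 3 ≤ t ^ (1 + θ) := by
    rw [← Real.rpow_natCast]; exact pow_le ht ht11 (by push_cast; linarith [hS.θ1])
  have hθle : t ^ (1 + θ) ≤ 1 := Real.rpow_le_one ht.le ht11 (by linarith [hS.θ0])
  have hb := PD.Ok.H_le hD hS hy ht1 hq
  have h1 := PD.Ok.ident0 hD hS hy ht ht1 hx7 hb
  have hp := PD.Ok.p_le hD hS hy ht ht1 hx7
  have h2 : |trL E ((D.H y (D.hol y x)).comp (D.Mp y x))| ≤
      ‖trL E‖ * (2 * K * Ck 1) * t ^ (1 + θ) := by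
    refine (abs_trL_le _).trans ?_
    have : ‖(D.H y (D.hol y x)).comp (D.Mp y x)‖ ≤ (Ck 1 * t ^ (1 + θ)) * (2 * K) :=
      (ContinuousLinearMap.opNorm_comp_le _ _).trans
        (mul_le_mul hb (PD.Ok.Mp_le hD hS hy ht ht1 hx7) (norm_nonneg _) (by positivity))
    calc ‖trL E‖ * ‖(D.H y (D.hol y x)).comp (D.Mp y x)‖ ≤
          ‖trL E‖ * ((Ck 1 * t ^ (1 + θ)) * (2 * K)) := by gcongr
      _ = _ := by ring
  have h3 : |D.A x (D.p y x - y)| ≤ K * Ck 0 * t ^ (1 + θ) := by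
    have : |D.A x (D.p y x - y)| ≤ ‖D.A x‖ * ‖D.p y x - y‖ := (D.A x).le_opNorm _
    calc _ ≤ _ := this
      _ ≤ K * (Ck 0 * t ^ (1 + θ)) := mul_le_mul (hD.A_bd x hx7)
          (PD.Ok.p_sub_le hD hS hy ht ht1 hx7) (norm_nonneg _) hK.le
      _ = _ := by ring
  rw [map_sub] at h3
  have h4 : |D.B x (D.p y x) (D.p y x)| ≤ 4 * K * t ^ (1 + θ) := by
    have : |D.B x (D.p y x) (D.p y x)| ≤ ‖D.B x‖ * ‖D.p y x‖ * ‖D.p y x‖ :=
      (D.B x).le_opNorm₂ _ _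
    calc _ ≤ _ := this
      _ ≤ K * (2 * t) * (2 * t) := by
          gcongr
          exact hD.B_bd x hx7
      _ = 4 * K * t ^ 2 := by ring
      _ ≤ 4 * K * t ^ (1 + θ) := by gcongr
  have h5 : |D.Xi y (D.hol y x) - D.Xi y x| ≤ 3 * K * Cb * t ^ (1 + θ) := by
    have h6 : ‖D.Xi y (D.hol y x) - D.Xi y x‖ ≤ (Cb * t ^ (1 - (1 / 4 : ℝ))) * ‖D.hol y x - x‖ :=
      (hXs D hD y t hy ht1).norm_sub_le (R' := 27 / 32) (by rw [mem_ball_zero_iff]; linarith)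
        (by rw [mem_ball_zero_iff]; linarith) (by norm_num) fun z hz => (hdX D hD y t hy ht ht1 z hz).1
    have h7 := PD.Ok.hol_sub_le hD hS hy ht ht1 hx7
    have h8 : t ^ (1 - (1 / 4 : ℝ)) * t ≤ t ^ (1 + θ) := by
      calc t ^ (1 - (1 / 4 : ℝ)) * t = t ^ (1 - (1 / 4 : ℝ)) * t ^ (1 : ℝ) := by rw [Real.rpow_one]
        _ = t ^ (1 - (1 / 4 : ℝ) + 1) := by rw [← Real.rpow_add ht]
        _ ≤ t ^ (1 + θ) := pow_le ht ht11 (by linarith [hS.θ1])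
    calc _ ≤ _ := h6
      _ ≤ (Cb * t ^ (1 - (1 / 4 : ℝ))) * (3 * K * t) := by gcongr
      _ = 3 * K * Cb * (t ^ (1 - (1 / 4 : ℝ)) * t) := by ring
      _ ≤ _ := by gcongr
  have h9 : 8 * K * t ^ 3 ≤ 8 * K * t ^ (1 + θ) := by gcongr
  have h10 : Cd E * (2 * K * (Ck 1 * t ^ (1 + θ))) ^ 2 ≤ Cd E * (2 * K * Ck 1) ^ 2 * t ^ (1 + θ) := by
    calc Cd E * (2 * K * (Ck 1 * t ^ (1 + θ))) ^ 2 =
          Cd E * (2 * K * Ck 1) ^ 2 * (t ^ (1 + θ) * t ^ (1 + θ)) := by ring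
      _ ≤ Cd E * (2 * K * Ck 1) ^ 2 * (t ^ (1 + θ) * 1) := by gcongr
      _ = _ := by ring
  rw [abs_le] at h1 h2 h3 h4 h5 ⊢
  constructor <;> linarith [h1.1, h1.2, h2.1, h2.2, h3.1, h3.2, h4.1, h4.2, h5.1, h5.2]

/-- (1d) `A` is smooth -/
theorem A_smooth (hS : Small E K θ r0 Ck r1) : ∃ MA : ℕ → ℝ, (∀ k, 0 ≤ MA k) ∧ ∀ D : PD E,
    D.Ok K θ r0 Ck CQ → SmB MA (25 / 32) D.A := by
  classical
  obtain ⟨C, hC, hA⟩ := A_approx (CQ := CQ) hS
  obtain ⟨MX, hMX, hXs⟩ := Xi_smB (CQ := CQ) hS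
  set n := Module.finrank ℝ E with hn
  set e : OrthonormalBasis (Fin n) ℝ E := stdOrthonormalBasis ℝ E with he
  obtain ⟨MA, hMA⟩ := H558.Tele.tele (E := E) (F := E →L[ℝ] ℝ)
    (fun k => ∑ i : Fin n, ‖ContinuousLinearMap.toSpanSingleton ℝ (innerSL ℝ (e i))‖ * MX k)
    (C := n * C) (p := 1) (r := 25 / 32) (R := 26 / 32) hS.θ0 zero_le_one hS.pos (by norm_num)
  refine ⟨fun k => |MA k|, fun k => abs_nonneg _, fun D hD => ?_⟩
  have key := hMA D.A 0 (fun t ht => ?_)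
  · exact ⟨key.1.mono (ball_subset_ball (by norm_num)), fun k x hx =>
      (key.2 k x hx).trans (le_abs_self _)⟩
  have ht0 : 0 < t := ht.1
  have ht1 : t ≤ r1 := ht.2.le
  have hnorm : ∀ i, ‖t • e i‖ ≤ t := fun i => by
    rw [norm_smul, e.orthonormal.1 i, mul_one, Real.norm_eq_abs, abs_of_pos ht0]
  have hsum : SmB (fun k => ∑ i : Fin n, ‖ContinuousLinearMap.toSpanSingleton ℝ (innerSL ℝ (e i))‖ *
      MX k) (26 / 32) (fun x => ∑ i : Fin n, (ContinuousLinearMap.toSpanSingleton ℝ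
        (innerSL ℝ (e i))) (D.Xi (t • e i) x)) :=
    SmB.sum _ fun i _ => ((hXs D hD (t • e i) t (hnorm i) ht1).mono_R (by norm_num)).clm_comp _
  have hΦ := hsum.const_smul (-t⁻¹)
  refine ⟨_, hΦ.1, fun k x hx => (hΦ.2 k x hx).trans_eq ?_, fun x hx => ?_⟩
  · rw [abs_neg, abs_of_pos (by positivity), Real.rpow_neg_one, mul_comm]
  · have h1 : D.A x - (-t⁻¹) • ∑ i : Fin n, (ContinuousLinearMap.toSpanSingleton ℝ
        (innerSL ℝ (e i))) (D.Xi (t • e i) x) =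
        ∑ i : Fin n, (t⁻¹ * (D.A x (t • e i) + D.Xi (t • e i) x)) • innerSL ℝ (e i) := by
      ext v
      have h2 : D.A x v = ∑ i, ⟪e i, v⟫ * D.A x (e i) := by
        conv_lhs => rw [← e.sum_repr' v]
        rw [map_sum]
        exact Finset.sum_congr rfl fun i _ => by rw [map_smul, smul_eq_mul]
      rw [sub_apply, h2, smul_apply,
        sum_apply, sum_apply, smul_eq_mul,
        Finset.mul_sum, ← Finset.sum_sub_distrib]
      refine Finset.sum_congr rfl fun i _ => ?_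
      rw [map_smul]
      simp only [ContinuousLinearMap.toSpanSingleton_apply, smul_apply,
        innerSL_apply_apply, smul_eq_mul]
      field_simp
      ring
    rw [h1]
    refine (norm_sum_le _ _).trans ?_
    have h3 : ∀ i : Fin n, ‖(t⁻¹ * (D.A x (t • e i) + D.Xi (t • e i) x)) • innerSL ℝ (e i)‖ ≤
        C * t ^ θ := fun i => by
      rw [norm_smul, innerSL_apply_norm, e.orthonormal.1 i, mul_one, norm_mul, Real.norm_eq_abs,
        abs_of_pos (by positivity : (0 : ℝ) < t⁻¹), inv_mul_le_iff₀ ht0, Real.norm_eq_abs]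
      refine (hA D hD (t • e i) t (hnorm i) ht0 ht1 x hx).trans_eq ?_
      rw [Real.rpow_add ht0, Real.rpow_one]
      ring
    refine (Finset.sum_le_sum fun i _ => h3 i).trans_eq ?_
    rw [Finset.sum_const, Finset.card_univ, Fintype.card_fin, nsmul_eq_mul, mul_assoc]

end Vale.Agent.P207.H281
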