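import Vale.Agent.P207.H281.Stage1b

/-!
# P207, all dimensions, step 7: end of the first stage
-/

open Set Filter Topology Metric
open scoped ContDiff RealInnerProductSpace

set_option linter.unusedSectionVars false
set_option linter.unusedVariables false

noncomputable section

namespace Vale.Agent.P207.H281

variable {E : Type*} [NormedAddCommGroup E] [InnerProductSpace ℝ E] [FiniteDimensional ℝ E]

variable {K θ r0 r1 : ℝ} {Ck : ℕ → ℝ} {CQ : ℝ → ℝ → (ℕ → ℝ) → ℝ → ℝ}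

/-- `x ↦ A x y` -/
theorem Ay_smB {MA : ℕ → ℝ} {R : ℝ} {A : E → E →L[ℝ] ℝ} (hA : SmB MA R A) (hM : ∀ k, 0 ≤ MA k)
    {y : E} {t : ℝ} (hy : ‖y‖ ≤ t) : SmB (fun k => t * MA k) R (fun x => A x y) := by
  have h1 := hA.clm_comp (ContinuousLinearMap.apply ℝ ℝ y)
  refine h1.mono_M fun k => mul_le_mul_of_nonneg_right ?_ (hM k)
  refine le_trans ?_ hy
  refine ContinuousLinearMap.opNorm_le_bound _ (norm_nonneg _) fun f => ?_
  rw [ContinuousLinearMap.apply_apply, mul_comm]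
  exact f.le_opNorm y

/-- the derivative of `x ↦ A x y` -/
theorem fderiv_Ay {MA : ℕ → ℝ} {R : ℝ} {A : E → E →L[ℝ] ℝ} (hA : SmB MA R A) {x : E}
    (hx : x ∈ ball (0 : E) R) (y w : E) :
    fderiv ℝ (fun x => A x y) x w = fderiv ℝ A x w y := by
  have h1 := (hA.differentiableAt hx).hasFDerivAt.clm_apply (hasFDerivAt_const y x)
  rw [h1.fderiv]
  simp

theorem dXi_bd (hS : Small E K θ r0 Ck r1) {MA : ℕ → ℝ} (hMA : ∀ k, 0 ≤ MA k)
    (hA : ∀ D : PD E, D.Ok K θ r0 Ck CQ → SmB MA (25 / 32) D.A) :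
    ∃ C : ℝ, 0 ≤ C ∧ ∀ D : PD E, D.Ok K θ r0 Ck CQ → ∀ y t, ‖y‖ ≤ t → 0 < t → t ≤ r1 →
      ∀ x ∈ ball (0 : E) (24 / 32), ‖fderiv ℝ (D.Xi y) x‖ ≤ C * t := by
  obtain ⟨C0, hC0, hap⟩ := A_approx (CQ := CQ) hS
  obtain ⟨MX, hMX, hXs⟩ := Xi_smB (CQ := CQ) hS
  obtain ⟨C1, hC1, hin⟩ := interpT (E := E) (F := ℝ) (fun k => MX k + 1 * MA k) 1 C0 (a := 1 + θ)
    (δ := θ) (r := 24 / 32) (R := 25 / 32) (by linarith [hS.θ0]) (by linarith [hS.θ1]) hS.θ0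
    (by norm_num)
  refine ⟨C1 + MA 1, by have := hMA 1; positivity, fun D hD y t hy ht ht1 x hx => ?_⟩
  have hx25 : x ∈ ball (0 : E) (25 / 32) := ball_subset_ball (by norm_num) hx
  have h1 := (hXs D hD y t hy ht1).mono_R (R' := 25 / 32) (by norm_num)
  have h2 := Ay_smB (hA D hD) hMA hy
  have h3 : SmB (fun k => MX k + 1 * MA k) (25 / 32) (fun x => D.Xi y x + D.A x y) :=
    h1.add (h2.mono_M fun k => mul_le_mul_of_nonneg_right (hS.t_le_one ht1) (hMA k))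
  have h4 := hin (fun x => D.Xi y x + D.A x y) t ht (hS.t_le_one ht1) h3 (fun x hx => by
    rw [Real.norm_eq_abs, add_comm]
    exact hap D hD y t hy ht ht1 x (ball_subset_ball (by norm_num) hx)) x hx
  rw [← norm_iteratedFDeriv_fderiv, norm_iteratedFDeriv_zero,
    show (1 + θ - θ : ℝ) = 1 by ring, Real.rpow_one] at h4
  have h5 : fderiv ℝ (fun x => D.Xi y x + D.A x y) x =
      fderiv ℝ (D.Xi y) x + fderiv ℝ (fun x => D.A x y) x :=
    fderiv_fun_add (h1.differentiableAt hx25) (h2.differentiableAt hx25)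
  rw [h5] at h4
  have h6 : ‖fderiv ℝ (fun x => D.A x y) x‖ ≤ t * MA 1 := h2.norm_fderiv_le hx25
  have h7 : ‖fderiv ℝ (D.Xi y) x‖ ≤
      ‖fderiv ℝ (D.Xi y) x + fderiv ℝ (fun x => D.A x y) x‖ + ‖fderiv ℝ (fun x => D.A x y) x‖ := by
    simpa using norm_sub_le (fderiv ℝ (D.Xi y) x + fderiv ℝ (fun x => D.A x y) x)
      (fderiv ℝ (fun x => D.A x y) x)
  nlinarith

/-- (1f) -/
theorem first_bd (hS : Small E K θ r0 Ck r1) {Cx : ℝ} (hCx : 0 ≤ Cx)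
    (hdX : ∀ D : PD E, D.Ok K θ r0 Ck CQ → ∀ y t, ‖y‖ ≤ t → 0 < t → t ≤ r1 →
      ∀ x ∈ ball (0 : E) (24 / 32), ‖fderiv ℝ (D.Xi y) x‖ ≤ Cx * t) :
    ∃ C : ℝ, 0 ≤ C ∧ ∀ D : PD E, D.Ok K θ r0 Ck CQ → ∀ y t, ‖y‖ ≤ t → 0 < t → t ≤ r1 →
      ∀ x ∈ ball (0 : E) (23 / 32), |trL E ((D.N x).comp (D.H y x)) - D.F y x| ≤ C * t ^ (2 : ℝ) := by
  obtain ⟨MX, hMX, hXs⟩ := Xi_smB (CQ := CQ) hS
  have hK := hS.K0
  have hC1 := hS.Ck0 1
  have hC2 := hS.Ck0 2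
  have hC0 := hS.Ck0 0
  have hCd := Cd_nonneg E
  refine ⟨8 * K + Cd E * (2 * K * Ck 1) ^ 2 + 4 * K + 3 * K * Cx + 3 * K * K * Ck 1 +
    ‖trL E‖ * (6 * K * K * Ck 2 + 2 * K * Ck 1), by positivity, fun D hD y t hy ht ht1 x hx => ?_⟩
  rw [mem_ball_zero_iff] at hx
  have hx7 : ‖x‖ < 7 / 8 := by linarith
  have hyr := PD.Ok.y_le hD hS hy ht1
  have ht11 := hS.t_le_one ht1
  have hq := hD.hol_mem y x hyr hx7
  have hq2 := PD.Ok.hol_lt hD hS hy ht ht1 (s := 23 / 32) hx (by norm_num)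
  have hhol := PD.Ok.hol_sub_le hD hS hy ht ht1 hx7
  have htθ : t ^ (1 + θ) ≤ t := by
    calc t ^ (1 + θ) ≤ t ^ (1 : ℝ) := pow_le ht ht11 (by linarith [hS.θ0])
      _ = t := Real.rpow_one t
  have hb : ‖D.H y (D.hol y x)‖ ≤ Ck 1 * t :=
    (PD.Ok.H_le hD hS hy ht1 hq).trans (mul_le_mul_of_nonneg_left htθ hC1)
  have hbx : ‖D.H y x‖ ≤ Ck 1 * t :=
    (PD.Ok.H_le hD hS hy ht1 (by linarith)).trans (mul_le_mul_of_nonneg_left htθ hC1)
  have h1 := PD.Ok.ident0 hD hS hy ht ht1 hx7 hb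
  have hp := PD.Ok.p_le hD hS hy ht ht1 hx7
  have h4 : |D.B x (D.p y x) (D.p y x)| ≤ 4 * K * t ^ 2 := by
    have : |D.B x (D.p y x) (D.p y x)| ≤ ‖D.B x‖ * ‖D.p y x‖ * ‖D.p y x‖ :=
      (D.B x).le_opNorm₂ _ _
    calc _ ≤ _ := this
      _ ≤ K * (2 * t) * (2 * t) := by
          gcongr
          exact hD.B_bd x hx7
      _ = 4 * K * t ^ 2 := by ring
  have h5 : |D.Xi y (D.hol y x) - D.Xi y x| ≤ 3 * K * Cx * t ^ 2 := by
    have h6 : ‖D.Xi y (D.hol y x) - D.Xi y x‖ ≤ (Cx * t) * ‖D.hol y x - x‖ :=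
      (hXs D hD y t hy ht1).norm_sub_le (R' := 24 / 32) (by rw [mem_ball_zero_iff]; linarith)
        (by rw [mem_ball_zero_iff]; linarith) (by norm_num) fun z hz => hdX D hD y t hy ht ht1 z hz
    calc _ ≤ _ := h6
      _ ≤ (Cx * t) * (3 * K * t) := by gcongr
      _ = _ := by ring
  have hgs := PD.Ok.g_smB hD hS hy ht ht1
  have h7 : |D.A x (D.p y x - D.g y x)| ≤ 3 * K * K * Ck 1 * t ^ 2 := by
    have h8 : ‖D.g y (D.hol y x) - D.g y x‖ ≤ (Ck 1 * t) * ‖D.hol y x - x‖ :=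
      hgs.norm_sub_le (R' := 1) (by rw [mem_ball_zero_iff]; linarith)
        (by rwa [mem_ball_zero_iff]) le_rfl fun z hz =>
          (PD.Ok.H_le hD hS hy ht1 (by rwa [mem_ball_zero_iff] at hz)).trans
            (mul_le_mul_of_nonneg_left htθ hC1)
    have : |D.A x (D.p y x - D.g y x)| ≤ ‖D.A x‖ * ‖D.p y x - D.g y x‖ := (D.A x).le_opNorm _
    calc _ ≤ _ := this
      _ ≤ K * ((Ck 1 * t) * (3 * K * t)) := by
          refine mul_le_mul (hD.A_bd x hx7) (h8.trans ?_) (norm_nonneg _) hK.le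
          gcongr
      _ = _ := by ring
  rw [map_sub] at h7
  have h9 : |trL E ((D.H y (D.hol y x)).comp (D.Mp y x)) - trL E ((D.N x).comp (D.H y x))| ≤
      ‖trL E‖ * (6 * K * K * Ck 2 + 2 * K * Ck 1) * t ^ 2 := by
    rw [trL_comm (D.N x), ← map_sub]
    refine (abs_trL_le _).trans ?_
    have h10 : (D.H y (D.hol y x)).comp (D.Mp y x) - (D.H y x).comp (D.N x) =
        (D.H y (D.hol y x) - D.H y x).comp (D.Mp y x) + (D.H y x).comp (D.Mp y x - D.N x) := by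
      rw [ContinuousLinearMap.sub_comp, ContinuousLinearMap.comp_sub]
      abel
    have h11 : ‖D.H y (D.hol y x) - D.H y x‖ ≤ (Ck 2 * t) * ‖D.hol y x - x‖ :=
      (PD.Ok.H_smB hD hS hy ht ht1).norm_sub_le (R' := 1) (by rw [mem_ball_zero_iff]; linarith)
        (by rwa [mem_ball_zero_iff]) le_rfl fun z hz =>
          (PD.Ok.DH_le hD hS hy ht1 (by rwa [mem_ball_zero_iff] at hz)).trans
            (mul_le_mul_of_nonneg_left htθ hC2)
    have h12 : ‖(D.H y (D.hol y x) - D.H y x).comp (D.Mp y x)‖ ≤ (Ck 2 * t) * (3 * K * t) * (2 * K) := by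
      refine (ContinuousLinearMap.opNorm_comp_le _ _).trans
        (mul_le_mul (h11.trans ?_) (PD.Ok.Mp_le hD hS hy ht ht1 hx7) (norm_nonneg _) (by positivity))
      gcongr
    have h13 : ‖(D.H y x).comp (D.Mp y x - D.N x)‖ ≤ (Ck 1 * t) * (2 * K * t) :=
      (ContinuousLinearMap.opNorm_comp_le _ _).trans
        (mul_le_mul hbx (PD.Ok.Mp_sub_le hD hS hy ht ht1 hx7) (norm_nonneg _) (by positivity))
    rw [h10]
    have h14 := (norm_add_le ((D.H y (D.hol y x) - D.H y x).comp (D.Mp y x))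
      ((D.H y x).comp (D.Mp y x - D.N x))).trans (add_le_add h12 h13)
    calc ‖trL E‖ * _ ≤ ‖trL E‖ * ((Ck 2 * t) * (3 * K * t) * (2 * K) + (Ck 1 * t) * (2 * K * t)) := by
          gcongr
      _ = _ := by ring
  have h15 : 8 * K * t ^ 3 ≤ 8 * K * t ^ 2 := by
    have : t ^ 3 ≤ t ^ 2 := pow_le_pow_of_le_one ht.le ht11 (by norm_num)
    gcongr
  have h16 : Cd E * (2 * K * (Ck 1 * t)) ^ 2 = Cd E * (2 * K * Ck 1) ^ 2 * t ^ 2 := by ring
  have h17 : D.F y x = -(D.Xi y x) - D.A x (D.g y x) := rfl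
  rw [h16] at h1
  rw [h17, Real.rpow_two]
  rw [abs_le] at h1 h4 h5 h7 h9 ⊢
  constructor <;> linarith [h1.1, h1.2, h4.1, h4.2, h5.1, h5.2, h7.1, h7.2, h9.1, h9.2]

/-- bounds for `F y` -/
theorem F_smB (hS : Small E K θ r0 Ck r1) {MA : ℕ → ℝ} (hMA : ∀ k, 0 ≤ MA k) :
    ∃ M : ℕ → ℝ, (∀ k, 0 ≤ M k) ∧ ∀ D : PD E, D.Ok K θ r0 Ck CQ → SmB MA (25 / 32) D.A →
      ∀ y t, ‖y‖ ≤ t → 0 < t → t ≤ r1 → SmB M (25 / 32) (D.F y) := by
  obtain ⟨MX, hMX, hXs⟩ := Xi_smB (CQ := CQ) hS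
  refine ⟨fun k => MX k + ∑ i ∈ Finset.range (k + 1), (k.choose i : ℝ) * MA i * (Ck (k - i) + 1),
    fun k => ?_, fun D hD hA y t hy ht ht1 => ?_⟩
  · have h1 := hMX k
    have h2 : 0 ≤ ∑ i ∈ Finset.range (k + 1), (k.choose i : ℝ) * MA i * (Ck (k - i) + 1) :=
      Finset.sum_nonneg fun i _ => by
        have := hMA i
        have := hS.Ck0 (k - i)
        positivity
    positivity
  · have h1 := (hXs D hD y t hy ht1).mono_R (R' := 25 / 32) (by norm_num)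
    have h2 := hA.clm_apply ((PD.Ok.g_smB hD hS hy ht ht1).mono_R (R' := 25 / 32) (by norm_num))
    exact h1.neg.sub h2

theorem stage1 (hS : Small E K θ r0 Ck r1) {δ : ℝ} (hδ : 0 < δ) :
    ∃ (C : ℝ) (MA : ℕ → ℝ), 0 ≤ C ∧ (∀ k, 0 ≤ MA k) ∧
      ∀ D : PD E, D.Ok K θ r0 Ck CQ → D.St1 C δ r1 MA := by
  obtain ⟨MA, hMA, hA⟩ := A_smooth (CQ := CQ) hS
  obtain ⟨Ca, hCa, hXi⟩ := Xi_bd (CQ := CQ) hS
  obtain ⟨Cx, hCx, hdX⟩ := dXi_bd (CQ := CQ) hS hMA hA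
  obtain ⟨Cf, hCf, hf⟩ := first_bd (CQ := CQ) hS hCx hdX
  obtain ⟨MF, hMF, hF⟩ := F_smB (CQ := CQ) hS hMA
  obtain ⟨Cl, hCl, hl⟩ := lqT (E := E) CQ (r := 22 / 32) (R := 23 / 32)
    (fun k => Ck (k + 1) + MF k) (fun k => add_nonneg (hS.Ck0 _) (hMF k)) Cf (a := 2) (δ := δ)
    (by norm_num) (by norm_num) (by norm_num) hδ (by norm_num) (by norm_num)
  refine ⟨Ca + Cx + Cf + Cl, MA, by positivity, hMA, fun D hD => ⟨hA D hD, ?_, ?_, ?_, ?_⟩⟩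
  · intro y t hy ht ht1 x hx
    refine (hXi D hD y t hy ht ht1 x hx).trans (mul_le_mul_of_nonneg_right ?_ ht.le)
    linarith
  · intro y t hy ht ht1 x hx
    rw [← fderiv_Xi]
    refine (hdX D hD y t hy ht ht1 x hx).trans (mul_le_mul_of_nonneg_right ?_ ht.le)
    linarith
  · intro y t hy ht ht1 x hx
    refine (hf D hD y t hy ht ht1 x hx).trans (mul_le_mul_of_nonneg_right ?_ (by positivity))
    linarith
  · intro y t hy ht ht1 x hx
    have h1 := hl D.N hD.lq (D.H y) (D.F y) t ht (hS.t_le_one ht1)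
      ((PD.Ok.H_smB hD hS hy ht ht1).mono (by norm_num) fun k => by linarith [hMF k])
      ((hF D hD (hA D hD) y t hy ht ht1).mono (by norm_num) fun k => by linarith [hS.Ck0 (k + 1)])
      (fun x hx => hD.g_symm y (PD.Ok.y_le hD hS hy ht1) x (ball_subset_ball (by norm_num) hx))
      (fun x hx => hf D hD y t hy ht ht1 x hx) x hx
    refine h1.trans (mul_le_mul_of_nonneg_right ?_ (by positivity))
    linarith

end Vale.Agent.P207.H281
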