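import Vale.Agent.P207.H281.Stage3

/-!
# P207, all dimensions, step 7: the second order identity
-/

open Set Filter Topology Metric
open scoped ContDiff RealInnerProductSpace

set_option linter.unusedSectionVars false
set_option linter.unusedVariables false

noncomputable section

namespace Vale.Agent.P207.H281

variable {E : Type*} [NormedAddCommGroup E] [InnerProductSpace ℝ E] [FiniteDimensional ℝ E]

variable {K θ r0 r1 : ℝ} {Ck : ℕ → ℝ} {CQ : ℝ → ℝ → (ℕ → ℝ) → ℝ → ℝ}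

/-- the first part: derivatives of `H` and of `Z = Xi + A y`, and `g y x - y` -/
structure PD.Mid (D : PD E) (C δ r1 : ℝ) : Prop where
  dH : ∀ y t, ‖y‖ ≤ t → 0 < t → t ≤ r1 → ∀ x ∈ ball (0 : E) (21 / 32),
    ‖fderiv ℝ (D.H y) x‖ ≤ C * t ^ (2 - 2 * δ)
  gy : ∀ y t, ‖y‖ ≤ t → 0 < t → t ≤ r1 → ∀ x ∈ ball (0 : E) (22 / 32),
    ‖D.g y x - y‖ ≤ C * t ^ (2 - δ)
  dZ : ∀ y t, ‖y‖ ≤ t → 0 < t → t ≤ r1 → ∀ x ∈ ball (0 : E) (21 / 32), ∀ w : E,
    |fderiv ℝ (D.Xi y) x w + fderiv ℝ D.A x w y| ≤ C * t ^ (2 - 2 * δ) * ‖w‖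
  ddX : ∀ y t, ‖y‖ ≤ t → 0 < t → t ≤ r1 → ∀ x ∈ ball (0 : E) (21 / 32),
    ‖fderiv ℝ (fderiv ℝ (D.Xi y)) x‖ ≤ C * t ^ (1 - δ)

theorem mid (hS : Small E K θ r0 Ck r1) {δ : ℝ} (hδ : 0 < δ) (hδ4 : δ ≤ 1 / 4) (C : ℝ)
    (hC : 0 ≤ C) (MA : ℕ → ℝ) (hMA : ∀ k, 0 ≤ MA k) :
    ∃ C' : ℝ, 0 ≤ C' ∧ ∀ D : PD E, D.Ok K θ r0 Ck CQ → D.St1 C δ r1 MA → D.Mid C' δ r1 := by
  obtain ⟨MX, hMX, hXs⟩ := Xi_smB (CQ := CQ) hS
  obtain ⟨Cb, hCb, hdX⟩ := dXi_bd1 (CQ := CQ) hS hδ
  obtain ⟨C1, hC1, hin⟩ := interpT (E := E) (F := E →L[ℝ] E) (fun k => Ck (k + 1)) 1 C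
    (a := 2 - δ) (δ := δ) (r := 21 / 32) (R := 22 / 32) (by linarith) (by linarith) hδ (by norm_num)
  have hK := hS.K0
  set Cz : ℝ := C + ‖trL E‖ * (K * C) + K * C with hCz
  obtain ⟨C3, hC3, hin3⟩ := interpT (E := E) (F := ℝ) (fun k => MX k + 1 * MA k) 1 Cz (a := 2 - δ)
    (δ := δ) (r := 21 / 32) (R := 22 / 32) (by linarith) (by linarith) hδ (by norm_num)
  have hmax : 0 ≤ C1 + C + C3 + Cb := by positivity
  refine ⟨C1 + C + C3 + Cb, hmax, fun D hD h1 => ?_⟩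
  have hgy : ∀ y t, ‖y‖ ≤ t → 0 < t → t ≤ r1 → ∀ x ∈ ball (0 : E) (22 / 32),
      ‖D.g y x - y‖ ≤ C * t ^ (2 - δ) := by
    intro y t hy ht ht1 x hx
    have h2 : ‖D.g y x - D.g y 0‖ ≤ (C * t ^ (2 - δ)) * ‖x - 0‖ :=
      (PD.Ok.g_smB hD hS hy ht ht1).norm_sub_le (R' := 22 / 32) (by simp) hx (by norm_num)
        fun z hz => h1.H_bd y t hy ht ht1 z hz
    rw [hD.g_zero y (PD.Ok.y_le hD hS hy ht1), sub_zero] at h2
    refine h2.trans (mul_le_of_le_one_right (by positivity) ?_)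
    rw [mem_ball_zero_iff] at hx
    linarith
  refine ⟨?_, ?_, ?_, ?_⟩
  · intro y t hy ht ht1 x hx
    have h2 := hin (D.H y) t ht (hS.t_le_one ht1)
      ((PD.Ok.H_smB hD hS hy ht ht1).mono_R (by norm_num)) (h1.H_bd y t hy ht ht1) x hx
    rw [← norm_iteratedFDeriv_fderiv, norm_iteratedFDeriv_zero,
      show (2 - δ - δ : ℝ) = 2 - 2 * δ by ring] at h2
    refine h2.trans (mul_le_mul_of_nonneg_right ?_ (by positivity))
    linarith
  · intro y t hy ht ht1 x hx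
    refine (hgy y t hy ht ht1 x hx).trans (mul_le_mul_of_nonneg_right ?_ (by positivity))
    linarith
  · intro y t hy ht ht1 x hx w
    have ht11 := hS.t_le_one ht1
    have hx25 : x ∈ ball (0 : E) (25 / 32) := ball_subset_ball (by norm_num) hx
    have h2 := (hXs D hD y t hy ht1).mono_R (R' := 25 / 32) (by norm_num)
    have h3 := Ay_smB h1.A_smB hMA hy
    have h4 : SmB (fun k => MX k + 1 * MA k) (25 / 32) (fun x => D.Xi y x + D.A x y) :=
      h2.add (h3.mono_M fun k => mul_le_mul_of_nonneg_right ht11 (hMA k))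
    have h5 := hin3 (fun x => D.Xi y x + D.A x y) t ht ht11 (h4.mono_R (by norm_num))
      (fun x hx => by
        have hx7 : ‖x‖ < 7 / 8 := by
          rw [mem_ball_zero_iff] at hx; linarith
        have h6 := h1.first y t hy ht ht1 x (ball_subset_ball (by norm_num) hx)
        have h7 : D.F y x = -(D.Xi y x) - D.A x (D.g y x) := rfl
        rw [h7] at h6
        have h8 : |trL E ((D.N x).comp (D.H y x))| ≤ ‖trL E‖ * (K * C) * t ^ (2 - δ) := by
          refine (abs_trL_le _).trans ?_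
          have h9 : ‖(D.N x).comp (D.H y x)‖ ≤ K * (C * t ^ (2 - δ)) :=
            (ContinuousLinearMap.opNorm_comp_le _ _).trans
              (mul_le_mul (hD.N_bd x (by linarith)) (h1.H_bd y t hy ht ht1 x hx)
                (norm_nonneg _) hK.le)
          calc ‖trL E‖ * ‖(D.N x).comp (D.H y x)‖ ≤ ‖trL E‖ * (K * (C * t ^ (2 - δ))) := by gcongr
            _ = _ := by ring
        have h9 : |D.A x (D.g y x - y)| ≤ K * C * t ^ (2 - δ) := by
          have : |D.A x (D.g y x - y)| ≤ ‖D.A x‖ * ‖D.g y x - y‖ := (D.A x).le_opNorm _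
          calc _ ≤ _ := this
            _ ≤ K * (C * t ^ (2 - δ)) := mul_le_mul (hD.A_bd x hx7)
                (hgy y t hy ht ht1 x hx) (norm_nonneg _) hK.le
            _ = _ := by ring
        rw [map_sub] at h9
        have h10 : C * t ^ (2 : ℝ) ≤ C * t ^ (2 - δ) :=
          mul_le_mul_of_nonneg_left (pow_le ht ht11 (by linarith)) hC
        rw [Real.norm_eq_abs]
        rw [abs_le] at h6 h8 h9 ⊢
        rw [hCz]
        constructor <;> linarith [h6.1, h6.2, h8.1, h8.2, h9.1, h9.2]) x hx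
    rw [← norm_iteratedFDeriv_fderiv, norm_iteratedFDeriv_zero,
      show (2 - δ - δ : ℝ) = 2 - 2 * δ by ring] at h5
    have h6 : fderiv ℝ (fun x => D.Xi y x + D.A x y) x w =
        fderiv ℝ (D.Xi y) x w + fderiv ℝ D.A x w y := by
      rw [fderiv_fun_add (h2.differentiableAt hx25) (h3.differentiableAt hx25), add_apply,
        fderiv_Ay h1.A_smB hx25]
    rw [← h6, ← Real.norm_eq_abs]
    refine (ContinuousLinearMap.le_opNorm _ _).trans (mul_le_mul_of_nonneg_right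
      (h5.trans (mul_le_mul_of_nonneg_right ?_ (by positivity))) (norm_nonneg _))
    linarith
  · intro y t hy ht ht1 x hx
    refine ((hdX D hD y t hy ht ht1 x (ball_subset_ball (by norm_num) hx)).2).trans
      (mul_le_mul_of_nonneg_right ?_ (by positivity))
    linarith

end Vale.Agent.P207.H281
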