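import Vale.Agent.P207.H281.Stage1c
import Vale.Agent.P207.H717.Quad

/-!
# P207, all dimensions, step 7: the uniform 2-jet
-/

open Set Filter Topology Metric
open scoped ContDiff RealInnerProductSpace

set_option linter.unusedSectionVars false
set_option linter.unusedVariables false

noncomputable section

namespace Vale.Agent.P207.H281

variable {E : Type*} [NormedAddCommGroup E] [InnerProductSpace ℝ E] [FiniteDimensional ℝ E]

variable {K θ r0 r1 : ℝ} {Ck : ℕ → ℝ} {CQ : ℝ → ℝ → (ℕ → ℝ) → ℝ → ℝ}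

theorem bil_zero {ι : Type*} [Fintype ι] {c : ι → ℝ} {y : ι → E}
    (h : ∀ f g : E →L[ℝ] ℝ, ∑ i, c i * (f (y i) * g (y i)) = 0) (β : E →L[ℝ] E →L[ℝ] ℝ) :
    ∑ i, c i * β (y i) (y i) = 0 := by
  classical
  set n := Module.finrank ℝ E with hn
  set e : OrthonormalBasis (Fin n) ℝ E := stdOrthonormalBasis ℝ E with he
  have h1 : ∀ v : E, β v v = ∑ a, ∑ b, (innerSL ℝ (e a) v * innerSL ℝ (e b) v) * β (e a) (e b) := by
    intro v
    have h2 : ∀ w, β w v = ∑ b, ⟪e b, v⟫ * β w (e b) := fun w => by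
      conv_lhs => rw [← e.sum_repr' v]
      rw [map_sum]
      exact Finset.sum_congr rfl fun i _ => by rw [map_smul, smul_eq_mul]
    have h3 : β v = ∑ a, ⟪e a, v⟫ • β (e a) := by
      conv_lhs => rw [← e.sum_repr' v]
      rw [map_sum]
      exact Finset.sum_congr rfl fun i _ => by rw [map_smul]
    rw [h3, sum_apply]
    refine Finset.sum_congr rfl fun a _ => ?_
    rw [smul_apply, smul_eq_mul, h2, Finset.mul_sum]
    refine Finset.sum_congr rfl fun b _ => ?_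
    rw [innerSL_apply_apply, innerSL_apply_apply]
    ring
  have h4 : ∑ i, c i * β (y i) (y i) =
      ∑ a, ∑ b, (∑ i, c i * (innerSL ℝ (e a) (y i) * innerSL ℝ (e b) (y i))) * β (e a) (e b) := by
    simp only [h1, Finset.mul_sum, Finset.sum_mul]
    rw [Finset.sum_comm]
    refine Finset.sum_congr rfl fun a _ => ?_
    rw [Finset.sum_comm]
    refine Finset.sum_congr rfl fun b _ => Finset.sum_congr rfl fun i _ => ?_
    ring
  rw [h4]
  refine Finset.sum_eq_zero fun a _ => Finset.sum_eq_zero fun b _ => ?_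
  rw [h (innerSL ℝ (e a)) (innerSL ℝ (e b)), zero_mul]

/-- the output of the second stage -/
structure PD.St2 (D : PD E) (C δ r1 : ℝ) : Prop where
  dH : ∀ y t, ‖y‖ ≤ t → 0 < t → t ≤ r1 → ∀ x ∈ ball (0 : E) (21 / 32),
    ‖fderiv ℝ (D.H y) x‖ ≤ C * t ^ (2 - 2 * δ)
  second : ∀ y t, ‖y‖ ≤ t → 0 < t → t ≤ r1 → ∀ x ∈ ball (0 : E) (20 / 32),
    |trL E ((D.N x).comp (D.H y x)) - D.F y x - (fderiv ℝ D.A x (D.N x y) y - D.B x y y)| ≤
      C * t ^ (3 - 2 * δ)

set_option maxSynthPendingDepth 3 in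
theorem stage3 (hS : Small E K θ r0 Ck r1) {δ : ℝ} (hδ : 0 < δ) (hδ4 : δ ≤ 1 / 4) (C : ℝ)
    (MA : ℕ → ℝ) (hMA : ∀ k, 0 ≤ MA k) (C2 : ℝ) (hC2 : 0 ≤ C2) :
    ∃ C' : ℝ, 0 ≤ C' ∧ ∀ D : PD E, D.Ok K θ r0 Ck CQ → D.St1 C δ r1 MA → D.St2 C2 δ r1 →
      ∃ Q : E →L[ℝ] E →L[ℝ] (E →L[ℝ] E), (∀ x y, Q x y = Q y x) ∧ ‖Q‖ ≤ C' ∧
        ∀ y q, ‖y‖ ≤ r1 → ‖q‖ ≤ 3 * K * ‖y‖ → ‖D.H y q - Q y y‖ ≤ C' * ‖y‖ ^ (3 - 3 * δ) := by
  obtain ⟨MF, hMF, hF⟩ := F_smB (CQ := CQ) hS hMA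
  obtain ⟨Cl, hCl, hl⟩ := lqT (E := E) CQ (r := 19 / 32) (R := 20 / 32)
    (fun k => Ck (k + 1) + MF k) (fun k => add_nonneg (hS.Ck0 _) (hMF k)) C2 (a := 3 - 2 * δ)
    (δ := δ) (by norm_num) (by norm_num) (by norm_num) hδ (by linarith) (by linarith)
  have hK := hS.K0
  set s : ℝ := 3 - 3 * δ with hs
  have hs2 : 2 < s := by rw [hs]; linarith
  set Cq : ℝ := 5 * Cl / (1 - (2 : ℝ) ^ (2 - s)) with hCq
  have hq1 : (2 : ℝ) ^ (2 - s) < 1 := H717.Quad.q_lt_one hs2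
  have hCq0 : 0 ≤ Cq := div_nonneg (by positivity) (by linarith)
  refine ⟨2 * ((Ck 1 + Cq * r1 ^ s) / r1 ^ 2) + (C2 * (3 * K) + Cq), ?_, fun D hD h1 h2 => ?_⟩
  · have := hS.Ck0 1
    have := hS.pos
    positivity
  have hrel : H717.Quad.Rel (fun y => D.H y 0) Cl r1 s := by
    intro t ht htr N c y hc hy hcy
    have ht1 := hS.t_le_one htr
    set σ : E → E →L[ℝ] E := fun x => ∑ i, c i • D.H (y i) x with hσ
    set F : E → ℝ := fun x => ∑ i, c i • D.F (y i) x with hFd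
    have hM : ∀ (m : ℕ → ℝ) (hm : ∀ k, 0 ≤ m k) (k : ℕ), ∑ i, |c i| * m k ≤ m k := fun m hm k => by
      rw [← Finset.sum_mul]
      exact mul_le_of_le_one_left (hm k) hc
    have hσs : SmB (fun k => Ck (k + 1) + MF k) (20 / 32) σ := by
      refine ((SmB.sum Finset.univ fun i _ => ((PD.Ok.H_smB hD hS (hy i) ht htr).const_smul
        (c i))).mono (by norm_num)) fun k => ?_
      have := hM (fun k => Ck (k + 1)) (fun k => hS.Ck0 _) k
      linarith [hMF k]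
    have hFs : SmB (fun k => Ck (k + 1) + MF k) (20 / 32) F := by
      refine ((SmB.sum Finset.univ fun i _ => ((hF D hD h1.A_smB (y i) t (hy i) ht htr).const_smul
        (c i))).mono (by norm_num)) fun k => ?_
      have := hM MF hMF k
      linarith [hS.Ck0 (k + 1)]
    have hsym : ∀ x ∈ ball (0 : E) (20 / 32), ∀ u v, ⟪σ x u, v⟫ = ⟪u, σ x v⟫ := by
      intro x hx u v
      simp only [hσ, sum_apply, smul_apply, sum_inner,
        inner_sum, real_inner_smul_left, real_inner_smul_right]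
      refine Finset.sum_congr rfl fun i _ => ?_
      rw [hD.g_symm (y i) (PD.Ok.y_le hD hS (hy i) htr) x (ball_subset_ball (by norm_num) hx)]
    have hid : ∀ x ∈ ball (0 : E) (20 / 32), |trL E ((D.N x).comp (σ x)) - F x| ≤
        C2 * t ^ (3 - 2 * δ) := by
      intro x hx
      have h3 := bil_zero hcy (((fderiv ℝ D.A x).comp (D.N x)) - D.B x)
      have h4 : trL E ((D.N x).comp (σ x)) - F x = ∑ i, c i * (trL E ((D.N x).comp (D.H (y i) x)) -
          D.F (y i) x - (fderiv ℝ D.A x (D.N x (y i)) (y i) - D.B x (y i) (y i))) := by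
        have h5 : trL E ((D.N x).comp (σ x)) = ∑ i, c i * trL E ((D.N x).comp (D.H (y i) x)) := by
          simp only [hσ]
          rw [ContinuousLinearMap.comp_finsetSum, map_sum]
          refine Finset.sum_congr rfl fun i _ => ?_
          rw [ContinuousLinearMap.comp_smul, map_smul, smul_eq_mul]
        have h6 : ∑ i, c i * (fderiv ℝ D.A x (D.N x (y i)) (y i) - D.B x (y i) (y i)) = 0 := by
          rw [← h3]
          rfl
        simp only [mul_sub] at h6 ⊢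
        simp only [Finset.sum_sub_distrib] at h6 ⊢
        rw [h5]
        simp only [hFd, smul_eq_mul]
        linarith
      rw [h4]
      refine (Finset.abs_sum_le_sum_abs _ _).trans ?_
      have h7 : ∀ i, |c i * (trL E ((D.N x).comp (D.H (y i) x)) -
          D.F (y i) x - (fderiv ℝ D.A x (D.N x (y i)) (y i) - D.B x (y i) (y i)))| ≤
          |c i| * (C2 * t ^ (3 - 2 * δ)) := fun i => by
        rw [abs_mul]
        exact mul_le_mul_of_nonneg_left (h2.second (y i) t (hy i) ht htr x hx) (abs_nonneg _)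
      refine (Finset.sum_le_sum fun i _ => h7 i).trans ?_
      rw [← Finset.sum_mul]
      exact mul_le_of_le_one_left (by positivity) hc
    have h8 := hl D.N hD.lq σ F t ht ht1 hσs hFs hsym hid 0 (by simp)
    have h9 : (3 - 2 * δ - δ : ℝ) = s := by rw [hs]; ring
    rw [h9] at h8
    exact h8
  have hbd : ∀ y : E, ‖y‖ ≤ r1 → ‖D.H y 0‖ ≤ Ck 1 := fun y hy => by
    have h3 := PD.Ok.H_le hD hS hy le_rfl (q := 0) (by simp)
    exact h3.trans (mul_le_of_le_one_right (hS.Ck0 1)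
      (Real.rpow_le_one hS.pos.le (hS.t_le_one le_rfl) (by linarith [hS.θ0])))
  obtain ⟨Q, hQ1, hQ2, hQ3⟩ := H717.Quad.quad_of_rel_bound hs2 hS.pos hrel hbd
  refine ⟨Q, hQ1, hQ3.trans ?_, fun y q hy hq => ?_⟩
  · have : 0 ≤ C2 * (3 * K) + Cq := by positivity
    linarith
  · rcases eq_or_ne y 0 with rfl | hy0
    · rw [norm_zero, mul_zero] at hq
      have hq0 : q = 0 := by simpa using hq
      subst hq0
      have h3 := hQ2 0 hy
      rw [norm_zero, Real.zero_rpow (by linarith), mul_zero] at h3 ⊢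
      exact h3
    · have hyp : 0 < ‖y‖ := norm_pos_iff.2 hy0
      have h3 := hQ2 y hy
      have h4 : ‖q‖ ≤ 1 / 64 := hq.trans (hS.disp_t hy)
      have h5 : ‖D.H y q - D.H y 0‖ ≤ (C2 * ‖y‖ ^ (2 - 2 * δ)) * ‖q - 0‖ :=
        (PD.Ok.H_smB hD hS le_rfl hyp hy).norm_sub_le (R' := 21 / 32) (by simp)
          (by rw [mem_ball_zero_iff]; linarith) (by norm_num)
          fun z hz => h2.dH y ‖y‖ le_rfl hyp hy z hz
      rw [sub_zero] at h5
      have h6 : ‖y‖ ^ (2 - 2 * δ) * ‖y‖ ≤ ‖y‖ ^ s := by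
        calc ‖y‖ ^ (2 - 2 * δ) * ‖y‖ = ‖y‖ ^ (2 - 2 * δ) * ‖y‖ ^ (1 : ℝ) := by rw [Real.rpow_one]
          _ = ‖y‖ ^ (2 - 2 * δ + 1) := by rw [← Real.rpow_add hyp]
          _ ≤ ‖y‖ ^ s := pow_le hyp (hS.t_le_one hy) (by rw [hs]; linarith)
      have h7 : ‖D.H y q - D.H y 0‖ ≤ C2 * (3 * K) * ‖y‖ ^ s := by
        calc _ ≤ _ := h5
          _ ≤ (C2 * ‖y‖ ^ (2 - 2 * δ)) * (3 * K * ‖y‖) := by gcongr
          _ = C2 * (3 * K) * (‖y‖ ^ (2 - 2 * δ) * ‖y‖) := by ring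
          _ ≤ _ := by gcongr
      have h8 : ‖D.H y q - Q y y‖ ≤ ‖D.H y q - D.H y 0‖ + ‖D.H y 0 - Q y y‖ := by
        simpa using norm_add_le (D.H y q - D.H y 0) (D.H y 0 - Q y y)
      have h9 : 0 ≤ 2 * ((Ck 1 + Cq * r1 ^ s) / r1 ^ 2) := by
        have := hS.Ck0 1
        have := hS.pos
        positivity
      have h10 : 0 ≤ ‖y‖ ^ s := by positivity
      have h11 : ‖D.H y 0 - Q y y‖ ≤ Cq * ‖y‖ ^ s := h3
      nlinarith [mul_nonneg h9 h10]

end Vale.Agent.P207.H281
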