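import Vale.Agent.P207.H535.Interp

/-!
# P207, all dimensions, step 7: smooth functions with bounds on all derivatives
-/

open Set Filter Topology Metric
open scoped ContDiff

noncomputable section

namespace Vale.Agent.P207.H281

variable {E F G : Type*} [NormedAddCommGroup E] [NormedSpace ℝ E] [NormedAddCommGroup F]
  [NormedSpace ℝ F] [NormedAddCommGroup G] [NormedSpace ℝ G]

/-- `f` is smooth on the ball of radius `R` with bounds `M k` on the derivatives of order `k` -/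
def SmB (M : ℕ → ℝ) (R : ℝ) (f : E → F) : Prop :=
  ContDiffOn ℝ ∞ f (ball 0 R) ∧ ∀ k, ∀ x ∈ ball (0 : E) R, ‖iteratedFDeriv ℝ k f x‖ ≤ M k

namespace SmB

variable {M M' : ℕ → ℝ} {R R' : ℝ} {f g : E → F}

theorem at_ (h : SmB M R f) {x : E} (hx : x ∈ ball (0 : E) R) : ContDiffAt ℝ ∞ f x :=
  h.1.contDiffAt (isOpen_ball.mem_nhds hx)

theorem mono (h : SmB M R f) (hR : R' ≤ R) (hM : ∀ k, M k ≤ M' k) : SmB M' R' f :=
  ⟨h.1.mono (ball_subset_ball hR), fun k x hx => (h.2 k x (ball_subset_ball hR hx)).trans (hM k)⟩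

theorem mono_R (h : SmB M R f) (hR : R' ≤ R) : SmB M R' f := h.mono hR fun _ => le_rfl

theorem mono_M (h : SmB M R f) (hM : ∀ k, M k ≤ M' k) : SmB M' R f := h.mono le_rfl hM

theorem norm_le (h : SmB M R f) {x : E} (hx : x ∈ ball (0 : E) R) : ‖f x‖ ≤ M 0 := by
  have := h.2 0 x hx
  rwa [norm_iteratedFDeriv_zero] at this

theorem differentiableAt (h : SmB M R f) {x : E} (hx : x ∈ ball (0 : E) R) :
    DifferentiableAt ℝ f x := (h.at_ hx).differentiableAt (by simp)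

theorem norm_fderiv_le (h : SmB M R f) {x : E} (hx : x ∈ ball (0 : E) R) :
    ‖fderiv ℝ f x‖ ≤ M 1 := by
  have := h.2 1 x hx
  rwa [← norm_iteratedFDeriv_fderiv, norm_iteratedFDeriv_zero] at this

theorem congr (h : SmB M R f) (hfg : ∀ x ∈ ball (0 : E) R, g x = f x) : SmB M R g := by
  refine ⟨h.1.congr hfg, fun k x hx => ?_⟩
  have h1 : g =ᶠ[𝓝 x] f := by
    filter_upwards [isOpen_ball.mem_nhds hx] with y hy using hfg y hy
  rw [(Filter.EventuallyEq.iteratedFDeriv (𝕜 := ℝ) h1 k).eq_of_nhds]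
  exact h.2 k x hx

theorem fderiv (h : SmB M R f) : SmB (fun k => M (k + 1)) R (fderiv ℝ f) := by
  refine ⟨?_, fun k x hx => ?_⟩
  · exact h.1.fderiv_of_isOpen isOpen_ball (by simp)
  · rw [norm_iteratedFDeriv_fderiv]
    exact h.2 (k + 1) x hx

theorem add (hf : SmB M R f) (hg : SmB M' R g) : SmB (fun k => M k + M' k) R (fun x => f x + g x) := by
  refine ⟨hf.1.add hg.1, fun k x hx => ?_⟩
  have h1 : iteratedFDeriv ℝ k (fun x => f x + g x) x =
      iteratedFDeriv ℝ k f x + iteratedFDeriv ℝ k g x :=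
    iteratedFDeriv_add_apply ((hf.at_ hx).of_le (by exact_mod_cast le_top))
      ((hg.at_ hx).of_le (by exact_mod_cast le_top))
  rw [h1]
  exact (norm_add_le _ _).trans (add_le_add (hf.2 k x hx) (hg.2 k x hx))

theorem const_smul (hf : SmB M R f) (c : ℝ) : SmB (fun k => |c| * M k) R (fun x => c • f x) := by
  refine ⟨hf.1.const_smul c, fun k x hx => ?_⟩
  have h1 : iteratedFDeriv ℝ k (fun x => c • f x) x = c • iteratedFDeriv ℝ k f x :=
    iteratedFDeriv_const_smul_apply' ((hf.at_ hx).of_le (by exact_mod_cast le_top))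
  rw [h1, norm_smul, Real.norm_eq_abs]
  exact mul_le_mul_of_nonneg_left (hf.2 k x hx) (abs_nonneg c)

theorem neg (hf : SmB M R f) : SmB M R (fun x => - f x) := by
  refine ((hf.const_smul (-1)).congr fun x _ => by simp).mono_M fun k => ?_
  simp

theorem sub (hf : SmB M R f) (hg : SmB M' R g) : SmB (fun k => M k + M' k) R (fun x => f x - g x) :=
  (hf.add hg.neg).congr fun x _ => sub_eq_add_neg _ _

theorem clm_comp (hf : SmB M R f) (L : F →L[ℝ] G) : SmB (fun k => ‖L‖ * M k) R (fun x => L (f x)) := by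
  refine ⟨L.contDiff.comp_contDiffOn hf.1, fun k x hx => ?_⟩
  have h1 := L.norm_iteratedFDeriv_comp_left (n := k) ((hf.at_ hx).of_le (by exact_mod_cast le_top) :
    ContDiffAt ℝ k f x) le_rfl
  exact h1.trans (mul_le_mul_of_nonneg_left (hf.2 k x hx) (norm_nonneg _))

theorem M_nonneg (hf : SmB M R f) (hR : 0 < R) (k : ℕ) : 0 ≤ M k :=
  (norm_nonneg _).trans (hf.2 k 0 (by simpa using hR))

theorem clm_apply {A : E → F →L[ℝ] G} (hA : SmB M R A) (hf : SmB M' R f) :
    SmB (fun k => ∑ i ∈ Finset.range (k + 1), (k.choose i : ℝ) * M i * M' (k - i)) R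
      (fun x => A x (f x)) := by
  refine ⟨hA.1.clm_apply hf.1, fun k x hx => ?_⟩
  have h1 := norm_iteratedFDerivWithin_clm_apply (𝕜 := ℝ) (n := k) hA.1 hf.1
    isOpen_ball.uniqueDiffOn hx (by exact_mod_cast le_top)
  rw [iteratedFDerivWithin_of_isOpen k isOpen_ball hx] at h1
  refine h1.trans (Finset.sum_le_sum fun i _ => ?_)
  rw [iteratedFDerivWithin_of_isOpen i isOpen_ball hx,
    iteratedFDerivWithin_of_isOpen (k - i) isOpen_ball hx]
  have h2 := hA.2 i x hx
  have h3 := hf.2 (k - i) x hx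
  have h4 : (0 : ℝ) ≤ (k.choose i : ℝ) := by positivity
  have h5 : (0 : ℝ) ≤ M i := (norm_nonneg _).trans h2
  exact mul_le_mul (mul_le_mul_of_nonneg_left h2 h4) h3 (norm_nonneg _) (mul_nonneg h4 h5)

theorem zero (M : ℕ → ℝ) (hM : ∀ k, 0 ≤ M k) (R : ℝ) : SmB M R (fun _ : E => (0 : F)) := by
  refine ⟨contDiffOn_const, fun k x _ => ?_⟩
  rw [iteratedFDeriv_fun_zero]
  simpa using hM k

theorem sum {ι : Type*} (s : Finset ι) {f : ι → E → F} {M : ι → ℕ → ℝ}
    (h : ∀ i ∈ s, SmB (M i) R (f i)) : SmB (fun k => ∑ i ∈ s, M i k) R (fun x => ∑ i ∈ s, f i x) := by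
  classical
  induction s using Finset.induction_on with
  | empty => simpa using zero (E := E) (F := F) (fun _ => 0) (fun _ => le_rfl) R
  | insert a s ha ih =>
    simp only [Finset.sum_insert ha]
    exact (h a (Finset.mem_insert_self a s)).add (ih fun i hi => h i (Finset.mem_insert_of_mem hi))

/-- mean value inequality -/
theorem norm_sub_le (hf : SmB M R f) {C : ℝ} {x y : E} (hx : x ∈ ball (0 : E) R')
    (hy : y ∈ ball (0 : E) R') (hR : R' ≤ R)
    (hC : ∀ z ∈ ball (0 : E) R', ‖_root_.fderiv ℝ f z‖ ≤ C) : ‖f y - f x‖ ≤ C * ‖y - x‖ :=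
  (convex_ball (0 : E) R').norm_image_sub_le_of_norm_fderiv_le (𝕜 := ℝ)
    (fun _ hz => hf.differentiableAt (ball_subset_ball hR hz)) hC hx hy

/-- second order Taylor -/
theorem norm_sub_sub_le (hf : SmB M R f) {C : ℝ} {x y : E} (hx : x ∈ ball (0 : E) R')
    (hy : y ∈ ball (0 : E) R') (hR : R' ≤ R)
    (hC : ∀ z ∈ ball (0 : E) R', ‖_root_.fderiv ℝ (_root_.fderiv ℝ f) z‖ ≤ C) :
    ‖f y - f x - _root_.fderiv ℝ f x (y - x)‖ ≤ C * ‖y - x‖ ^ 2 := by
  have hC0 : 0 ≤ C := (norm_nonneg (_root_.fderiv ℝ (_root_.fderiv ℝ f) x)).trans (hC x hx)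
  have h1 : ∀ z ∈ segment ℝ x y, ‖_root_.fderiv ℝ f z - _root_.fderiv ℝ f x‖ ≤ C * ‖y - x‖ := by
    intro z hz
    have hzb : z ∈ ball (0 : E) R' := (convex_ball (0 : E) R').segment_subset hx hy hz
    have h2 := hf.fderiv.norm_sub_le hx hzb hR hC
    refine h2.trans (mul_le_mul_of_nonneg_left ?_ hC0)
    rw [segment_eq_image'] at hz
    obtain ⟨t, ht, rfl⟩ := hz
    rw [add_sub_cancel_left, norm_smul, Real.norm_eq_abs, abs_of_nonneg ht.1]
    exact mul_le_of_le_one_left (norm_nonneg _) ht.2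
  have h3 := (convex_segment x y).norm_image_sub_le_of_norm_fderiv_le' (𝕜 := ℝ)
    (fun z hz => hf.differentiableAt (ball_subset_ball hR
      ((convex_ball (0 : E) R').segment_subset hx hy hz))) h1 (left_mem_segment ℝ x y)
    (right_mem_segment ℝ x y)
  calc _ ≤ C * ‖y - x‖ * ‖y - x‖ := h3
    _ = _ := by ring

end SmB

/-- interpolation, in powers of a small parameter -/
theorem interpT (M : ℕ → ℝ) (j : ℕ) (K : ℝ) {a δ r R : ℝ} (ha : 0 ≤ a) (ha4 : a ≤ 4) (hδ : 0 < δ)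
    (hr : r < R) : ∃ C : ℝ, 0 ≤ C ∧ ∀ (f : E → F) (t : ℝ), 0 < t → t ≤ 1 → SmB M R f →
      (∀ x ∈ ball (0 : E) R, ‖f x‖ ≤ K * t ^ a) →
      ∀ x ∈ ball (0 : E) r, ‖iteratedFDeriv ℝ j f x‖ ≤ C * t ^ (a - δ) := by
  obtain ⟨C, hC, h⟩ := H535.interp (E := E) (F := F) (fun i => |M i|) j (ε := δ / 4) (by positivity) hr
  set K' := max K 1 with hK'
  have hK1 : 1 ≤ K' := le_max_right _ _
  have hK0 : 0 < K' := by linarith
  refine ⟨K' * C, by positivity, fun f t ht ht1 hf hb x hx => ?_⟩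
  have hR : 0 < R := by
    have := norm_nonneg x
    rw [mem_ball_zero_iff] at hx; linarith
  have hta : 0 < t ^ a := Real.rpow_pos_of_pos ht a
  have hf' : SmB (fun k => |K'⁻¹| * M k) R (fun x => K'⁻¹ • f x) := hf.const_smul _
  have h1 := h (fun x => K'⁻¹ • f x) 0 (t ^ a) hf'.1 (fun i y hy => (hf'.2 i y hy).trans (by
      rw [abs_of_pos (by positivity)]
      calc K'⁻¹ * M i ≤ 1 * |M i| := by
            refine mul_le_mul (inv_le_one_of_one_le₀ hK1) (le_abs_self _) (hf.M_nonneg hR i) zero_le_one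
        _ = |M i| := one_mul _)) hta (Real.rpow_le_one ht.le ht1 ha) (fun y hy => by
      rw [norm_smul, Real.norm_eq_abs, abs_of_pos (by positivity), inv_mul_le_iff₀ hK0]
      exact (hb y hy).trans (mul_le_mul_of_nonneg_right (le_max_left _ _) hta.le)) x hx
  have hxR : x ∈ ball (0 : E) R := ball_subset_ball hr.le hx
  have h2 : iteratedFDeriv ℝ j (fun x => K'⁻¹ • f x) x = K'⁻¹ • iteratedFDeriv ℝ j f x :=
    iteratedFDeriv_const_smul_apply' ((hf.at_ hxR).of_le (by exact_mod_cast le_top))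
  rw [h2, norm_smul, Real.norm_eq_abs, abs_of_pos (by positivity), inv_mul_le_iff₀ hK0] at h1
  have h3 : (t ^ a) ^ (1 - δ / 4) ≤ t ^ (a - δ) := by
    rw [← Real.rpow_mul ht.le]
    refine Real.rpow_le_rpow_of_exponent_ge ht ht1 ?_
    nlinarith
  calc ‖iteratedFDeriv ℝ j f x‖ ≤ K' * (C * (t ^ a) ^ (1 - δ / 4)) := h1
    _ ≤ K' * (C * t ^ (a - δ)) := by gcongr
    _ = K' * C * t ^ (a - δ) := by ring

end Vale.Agent.P207.H281
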